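import Crest.Agent.R108.Proc

/-!
Row 108: the process never stops and produces a bounded biorthogonal system.
-/

set_option autoImplicit false

open Filter Topology Set

namespace Crest.Agent.R108

variable {X : Type*} [NormedAddCommGroup X] [NormedSpace ℝ X]

theorem biorth_false (hX : Function.Surjective (NormedSpace.inclusionInDoubleDual ℝ X))
    (W : ℕ → X) (ψ : ℕ → StrongDual ℝ X) {C δ : ℝ} (hδ : 0 < δ) (hψ : ∀ r, ‖ψ r‖ ≤ 1)
    (hW : ∀ m, ‖W m‖ ≤ C) (h1 : ∀ r m, r < m → δ ≤ ψ r (W m))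
    (h2 : ∀ m, Tendsto (fun r => ψ r (W m)) atTop (𝓝 0)) : False := by
  obtain ⟨y, hy⟩ := exists_wlim hX UU W (Eventually.of_forall hW)
  obtain ⟨φ, hφ⟩ := exists_ulim_dual UU ψ (Eventually.of_forall hψ)
  have a1 : ∀ r, δ ≤ ψ r y := fun r => ge_of_tendsto (hy (ψ r))
    (UU_le ((eventually_gt_atTop r).mono fun m hm => h1 r m hm))
  have a2 : δ ≤ φ y := ge_of_tendsto (hφ y) (Eventually.of_forall a1)
  have a3 : ∀ m, φ (W m) = 0 := fun m => tendsto_nhds_unique (hφ _) ((h2 m).mono_left UU_le)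
  have a4 : φ y = 0 := tendsto_nhds_unique (hy φ) (by simpa only [a3] using tendsto_const_nhds)
  linarith

namespace Setup

variable (S : Setup X)

theorem ε_succ (t : ℕ) : S.ε t = 2 * S.ε (t + 1) := by
  unfold ε; field_simp; ring

theorem ε_tail (s m : ℕ) : ∑ r ∈ Finset.Ico s m, S.ε r ≤ 2 * S.ε s := by
  rcases le_total m s with h | h
  · rw [Finset.Ico_eq_empty_of_le h, Finset.sum_empty]
    linarith [S.ε_pos s]
  · have : ∑ r ∈ Finset.Ico s m, S.ε r = 2 * S.ε s - 2 * S.ε m := by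
      induction m, h using Nat.le_induction with
      | base => simp
      | succ m h ih => rw [Finset.sum_Ico_succ_top h, ih]; linarith [S.ε_succ m]
    linarith [S.ε_pos m]

theorem ε_le (t : ℕ) : S.ε t ≤ S.D / 8 := by
  unfold ε
  refine div_le_div_of_nonneg_left S.D_pos.le (by norm_num) ?_
  calc (8 : ℝ) = 2 ^ 3 := by norm_num
    _ ≤ _ := pow_le_pow_right₀ (by norm_num) (by omega)

theorem ε_tendsto : Tendsto S.ε atTop (𝓝 0) := by
  unfold ε
  exact tendsto_const_nhds.div_atTop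
    ((tendsto_pow_atTop_atTop_of_one_lt (by norm_num : (1 : ℝ) < 2)).comp
      (tendsto_add_atTop_nat 3))

variable [CompleteSpace X] (hX : Function.Surjective (NormedSpace.inclusionInDoubleDual ℝ X))
include hX

theorem never_stuck (n : ℕ) : ∃ k ≥ n, S.Acc k := by
  by_contra hcon
  push Not at hcon
  have ht : ∀ k ≥ n, S.t k = S.t n := fun k hk => by
    induction k, hk using Nat.le_induction with
    | base => rfl
    | succ k hk ih => rw [(S.t_nacc (hcon k hk)).1, ih]
  set T := S.t n with hT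
  set x := (S.st n).x with hx
  have hxk : ∀ k ≥ n, (S.st k).x = x := fun k hk => S.x_const hk (ht k hk)
  set ε := S.ε T with hε
  have hε0 : 0 < ε := S.ε_pos T
  -- a functional seeing many candidates
  have h1 : ∀ᶠ k in (UU : Filter ℕ), ∃ a ∈ Iio T ×ˢ ({1, -1} : Set ℝ),
      n ≤ k ∧ ε < (a.2 • (S.st n).Ψ a.1) (S.w (S.st k) (S.ch k)) := by
    filter_upwards [UU_le (eventually_ge_atTop n)] with k hk
    have h2 := hcon k hk
    unfold Acc acc at h2
    push Not at h2
    obtain ⟨r, hr, h2⟩ := h2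
    have hr' : r < T := (ht k hk) ▸ hr
    have e : (S.st k).t = T := ht k hk
    rw [e, (S.WΨ_const hk hr').2] at h2
    rcases lt_abs.1 h2 with h2 | h2
    · exact ⟨(r, 1), ⟨hr', by simp⟩, hk, by simpa using h2⟩
    · exact ⟨(r, -1), ⟨hr', by simp⟩, hk, by simpa using h2⟩
  obtain ⟨a, ha, h2⟩ := (Ultrafilter.eventually_exists_mem_iff
    ((finite_Iio T).prod (toFinite _))).1 h1
  set φ := a.2 • (S.st n).Ψ a.1 with hφ
  have hφ1 : ‖φ‖ ≤ 1 := by
    have : |a.2| = 1 := by rcases ha.2 with h | h <;> simp [show a.2 = _ from h]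
    rw [hφ, norm_smul, Real.norm_eq_abs, this, one_mul]
    exact (S.inv hX n).hΨ _
  -- the chosen points converge weakly to `x`
  obtain ⟨hy1, hy2⟩ := S.wl_spec hX (y := fun k => S.g (S.ch k)) (S.g_mem hX)
  have hyx : wl (fun k => S.g (S.ch k)) = x := by
    refine S.sep _ hy2 _ (S.x_mem hX n) fun i => ?_
    have a1 := (hy1 (S.θ i)).sub_const (S.θ i x)
    have a2 : Tendsto (fun k => S.θ i (S.g (S.ch k)) - S.θ i x) UU (𝓝 0) := by
      refine squeeze_zero_norm' ?_ (tendsto_one_div_add_atTop_nhds_zero_nat.mono_left UU_le)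
      filter_upwards [UU_le (eventually_ge_atTop n), UU_le (eventually_ge_atTop i)] with k hk hi
      have := (S.good hX k).near i hi
      rwa [hxk k hk, map_sub] at this
    rw [map_sub]
    exact tendsto_nhds_unique a1 a2
  rw [hyx] at hy1
  have hmem := hy1.mem (s := closure (convexHull ℝ ((fun k => S.g (S.ch k)) ''
    {k | n ≤ k ∧ ε < φ (S.w (S.st k) (S.ch k))}))) (convex_convexHull ℝ _).closure
    isClosed_closure (h2.mono fun k hk => subset_closure (subset_convexHull ℝ _ ⟨k, hk, rfl⟩))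
  obtain ⟨y, hy, hd⟩ := Metric.mem_closure_iff.1 hmem (ε / 4) (by positivity)
  obtain ⟨ι, _, c, z, hc0, hc1, hz, rfl⟩ := mem_convexHull_iff_exists_fintype.1 hy
  choose κ hκ hκz using hz
  have hchain : ∀ M d s, s + d = T →
      ‖∑ i, c i • S.V M s (κ i)‖ ≤ ε / 4 + d * (ε / (4 * ((T : ℝ) + 1))) := by
    intro M d
    induction d with
    | zero =>
      intro s hs
      obtain rfl : s = T := hs
      have e : ∑ i, c i • S.V M T (κ i) = ∑ i, c i • z i - x := by
        conv_rhs => rw [← one_smul ℝ x, ← hc1, Finset.sum_smul, ← Finset.sum_sub_distrib]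
        refine Finset.sum_congr rfl fun i _ => ?_
        rw [← ht (κ i) (hκ i).1, S.V_top, hxk _ (hκ i).1, ← hκz i, smul_sub]
      rw [e, ← dist_eq_norm, dist_comm]
      simpa using hd.le
    | succ d ih =>
      intro s hs
      have hsT : s < T := by omega
      set N := max n (Finset.univ.sup κ + 1) with hN
      have a1 := (S.lin hX M s N (by rw [ht N (le_max_left _ _)]; exact hsT)).ineq
        ⟨_, S.f_mem 0⟩ S.e_nonneg Finset.univ κ (fun i _ => by
          have := Finset.le_sup (f := κ) (Finset.mem_univ i); omega) c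
      have hs' : ∀ i, s < S.t (κ i) := fun i => by rw [ht _ (hκ i).1]; exact hsT
      have e : ∑ i, |c i| * S.e (κ i) = ε / (4 * ((T : ℝ) + 1)) := by
        rw [Finset.sum_congr rfl fun i _ => by rw [abs_of_nonneg (hc0 i), e, ht _ (hκ i).1],
          ← Finset.sum_mul, hc1, one_mul]
      simp only [U, u, if_pos (hs' _), e] at a1
      have := ih (s + 1) (by omega)
      push_cast
      linarith
  have hlim : Tendsto (fun M => φ (∑ i, c i • S.V M 0 (κ i))) UU
      (𝓝 (∑ i, c i * φ (S.w (S.st (κ i)) (S.ch (κ i))))) := by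
    simp only [map_sum, map_smul, smul_eq_mul]
    exact tendsto_finsetSum _ fun i _ => (S.V_lim hX (κ i) φ).const_mul _
  have b1 : ∑ i, c i * φ (S.w (S.st (κ i)) (S.ch (κ i))) ≤ ε / 2 := by
    refine le_of_tendsto hlim (Eventually.of_forall fun M => ?_)
    refine (le_abs_self _).trans ((φ.le_of_opNorm_le hφ1 _).trans ?_)
    have a1 := hchain M T 0 (zero_add _)
    have a2 : T * (ε / (4 * ((T : ℝ) + 1))) ≤ ε / 4 := by
      rw [← mul_div_assoc, div_le_div_iff₀ (by positivity) (by norm_num)]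
      nlinarith
    linarith
  have b2 : ε ≤ ∑ i, c i * φ (S.w (S.st (κ i)) (S.ch (κ i))) := by
    rw [← one_mul ε, ← hc1, Finset.sum_mul]
    exact Finset.sum_le_sum fun i _ => mul_le_mul_of_nonneg_left (hκ i).2.le (hc0 i)
  linarith

theorem exists_acc (n : ℕ) : ∃ k, S.Acc k ∧ S.t k = S.t n := by
  classical
  have h := S.never_stuck hX n
  refine ⟨Nat.find h, (Nat.find_spec h).2, ?_⟩
  have : ∀ k, n ≤ k → k ≤ Nat.find h → S.t k = S.t n := fun k hk => by
    induction k, hk using Nat.le_induction with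
    | base => exact fun _ => rfl
    | succ k hk ih =>
      intro hk'
      rw [(S.t_nacc fun ha => Nat.find_min h hk' ⟨hk, ha⟩).1, ih (by omega)]
  exact this _ (Nat.find_spec h).1 le_rfl

theorem exists_times : ∃ k : ℕ → ℕ, ∀ r, S.Acc (k r) ∧ S.t (k r) = r := by
  have : ∀ r, ∃ k, S.Acc k ∧ S.t k = r := fun r => by
    induction r with
    | zero => exact S.exists_acc hX 0
    | succ r ih =>
      obtain ⟨k, h1, h2⟩ := ih
      obtain ⟨k', h3, h4⟩ := S.exists_acc hX (k + 1)
      exact ⟨k', h3, by rw [h4, (S.t_acc h1).1, h2]⟩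
  choose k hk using this
  exact ⟨k, hk⟩

include S in
theorem contra : False := by
  obtain ⟨k, hk⟩ := S.exists_times hX
  have hmono : ∀ r r', r < r' → k r < k r' := fun r r' h => by
    by_contra h'
    have := S.t_mono (not_lt.1 h')
    rw [(hk r).2, (hk r').2] at this
    omega
  have ht1 : ∀ r, S.t (k r + 1) = r + 1 := fun r => by rw [(S.t_acc (hk r).1).1, (hk r).2]
  have hx : ∀ r, (S.st (k (r + 1))).x = (S.ch (k r)).x := fun r => by
    rw [S.x_const (hmono r (r + 1) (Nat.lt_succ_self r)) (by rw [ht1, (hk _).2]),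
      (S.t_acc (hk r).1).2]
  set w : ℕ → X := fun r => S.w (S.st (k r)) (S.ch (k r)) with hw
  set ψ : ℕ → StrongDual ℝ X := fun r => (S.ch (k r)).ψ with hψ
  have hchain : ∀ M m d s, s + d = m →
      ‖S.f M - (S.st (k s)).x - ∑ r ∈ Finset.Ico s m, S.V M s (k r)‖ ≤
        S.D + ∑ r ∈ Finset.Ico s m, ((S.ch (k r)).j * (S.D / ((M : ℝ) + 1)) + 2 * S.ε r) := by
    intro M m d
    induction d with
    | zero =>
      intro s hs
      obtain rfl : s = m := hs
      simpa using S.diam _ (S.f_mem M) _ (S.x_mem hX _)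
    | succ d ih =>
      intro s hs
      have hsm : s < m := by omega
      have a1 := (S.lin hX M s (k m) (by rw [(hk m).2]; exact hsm)).ineq
        ⟨_, S.f_mem 0⟩ S.e_nonneg (Finset.Ico s m) k
        (fun r hr => hmono r m (Finset.mem_Ico.1 hr).2) (fun r => if r = s then 1 else -1)
      have hlt : ∀ r ∈ Finset.Ico (s + 1) m, r ≠ s ∧ s < S.t (k r) := fun r hr => by
        have := Finset.mem_Ico.1 hr
        rw [(hk r).2]; omega
      have e1 : ∑ r ∈ Finset.Ico s m, (if r = s then (1 : ℝ) else -1) • S.U M s (k r) =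
          S.G (S.ch (k s)).j (S.f M) - S.g (S.ch (k s)) -
            ∑ r ∈ Finset.Ico (s + 1) m, S.V M s (k r) := by
        rw [Finset.sum_eq_sum_Ico_succ_bot hsm, if_pos rfl, one_smul, U,
          if_neg (by rw [(hk s).2]; omega), if_pos (by rw [ht1]; omega), sub_eq_add_neg _ (∑ _ ∈ _, _),
          ← Finset.sum_neg_distrib]
        congr 1
        refine Finset.sum_congr rfl fun r hr => ?_
        rw [if_neg (hlt r hr).1, U, if_pos (hlt r hr).2, neg_one_smul]
      have e2 : ∑ r ∈ Finset.Ico s m, (if r = s then (1 : ℝ) else -1) • S.u M s (k r) =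
          S.f M - (S.st (k (s + 1))).x - ∑ r ∈ Finset.Ico (s + 1) m, S.V M (s + 1) (k r) := by
        rw [Finset.sum_eq_sum_Ico_succ_bot hsm, if_pos rfl, one_smul, u,
          if_neg (by rw [(hk s).2]; omega), if_pos (by rw [ht1]; omega), sub_eq_add_neg _ (∑ _ ∈ _, _),
          ← Finset.sum_neg_distrib, hx]
        congr 1
        refine Finset.sum_congr rfl fun r hr => ?_
        rw [if_neg (hlt r hr).1, u, if_pos (hlt r hr).2, neg_one_smul]
      have a2 : ∑ r ∈ Finset.Ico s m, |if r = s then (1 : ℝ) else -1| * S.e (k r) ≤ 2 * S.ε s := by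
        refine (Finset.sum_le_sum fun r _ => ?_).trans (S.ε_tail s m)
        have : |if r = s then (1 : ℝ) else -1| = 1 := by split_ifs <;> simp
        rw [this, one_mul, e, (hk r).2]
        refine div_le_self (S.ε_pos r).le ?_
        linarith [Nat.cast_nonneg (α := ℝ) r]
      have a3 := ih (s + 1) (by omega)
      have a4 : ‖S.G (S.ch (k s)).j (S.f M) - S.f M‖ ≤ _ := S.G_fix _ M _ (S.A_sub S.x0_mem)
      have e3 : S.V M s (k s) = S.g (S.ch (k s)) - (S.st (k s)).x := by
        have := S.V_top M (k s)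
        rwa [(hk s).2] at this
      rw [Finset.sum_eq_sum_Ico_succ_bot hsm, Finset.sum_eq_sum_Ico_succ_bot hsm, e3]
      rw [e1, e2] at a1
      have e4 : S.f M - (S.st (k s)).x - (S.g (S.ch (k s)) - (S.st (k s)).x +
          ∑ r ∈ Finset.Ico (s + 1) m, S.V M s (k r)) =
          (S.G (S.ch (k s)).j (S.f M) - S.g (S.ch (k s)) -
            ∑ r ∈ Finset.Ico (s + 1) m, S.V M s (k r)) -
            (S.G (S.ch (k s)).j (S.f M) - S.f M) := by abel
      rw [e4]
      linarith [norm_sub_le (S.G (S.ch (k s)).j (S.f M) - S.g (S.ch (k s)) -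
        ∑ r ∈ Finset.Ico (s + 1) m, S.V M s (k r)) (S.G (S.ch (k s)).j (S.f M) - S.f M)]
  have hW : ∀ m, ‖∑ r ∈ Finset.range m, w r‖ ≤ 4 * S.D := by
    intro m
    have a1 : WT UU (fun M => ∑ r ∈ Finset.range m, S.V M 0 (k r)) (∑ r ∈ Finset.range m, w r) :=
      fun φ => by
        simp only [map_sum]
        exact tendsto_finsetSum _ fun r _ => S.V_lim hX (k r) φ
    refine mem_closedBall_zero_iff.1 (a1.mem (convex_closedBall _ _) Metric.isClosed_closedBall ?_)
    have a2 : Tendsto (fun M : ℕ => (∑ r ∈ Finset.Ico 0 m, ((S.ch (k r)).j : ℝ)) * S.D *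
        (1 / ((M : ℝ) + 1))) atTop (𝓝 0) := by
      simpa using tendsto_one_div_add_atTop_nhds_zero_nat.const_mul
        ((∑ r ∈ Finset.Ico 0 m, ((S.ch (k r)).j : ℝ)) * S.D)
    filter_upwards [UU_le (a2.eventually_le_const S.D_pos)] with M hM
    have a3 := hchain M m m 0 (zero_add _)
    rw [Finset.sum_add_distrib, ← Finset.sum_mul, ← Finset.mul_sum, ← mul_div_assoc,
      div_eq_mul_one_div] at a3
    have a4 := norm_sub_le (S.f M - (S.st (k 0)).x)
      (S.f M - (S.st (k 0)).x - ∑ r ∈ Finset.Ico 0 m, S.V M 0 (k r))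
    rw [sub_sub_cancel] at a4
    rw [mem_closedBall_zero_iff, Finset.range_eq_Ico]
    linarith [S.ε_tail 0 m, S.ε_le 0, S.diam _ (S.f_mem M) _ (S.x_mem hX (k 0)), S.D_pos]
  have hlow : ∀ r r', r' < r → |ψ r (w r')| ≤ S.ε r / ((r : ℝ) + 1) := fun r r' h => by
    have a1 := (S.good hX (k r)).small r' (h.trans_eq (hk r).2.symm)
    have a2 := (S.WΨ_acc (hk r').1 (hmono r' r h)).1
    have a3 : (S.st (k r)).t = r := (hk r).2
    rw [(hk r').2] at a2
    rwa [a2, a3] at a1
  have hup : ∀ r r', r < r' → |ψ r (w r')| ≤ S.ε r' := fun r r' h => by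
    have a1 := (hk r').1 r (h.trans_eq (hk r').2.symm)
    have a2 := (S.WΨ_acc (hk r).1 (hmono r r' h)).2
    have a3 : (S.st (k r')).t = r' := (hk r').2
    rw [(hk r).2] at a2
    rwa [a2, a3] at a1
  have hdiag : ∀ r, S.D - S.ε r ≤ ψ r (w r) := fun r => by
    have a1 := (S.inv hX (k r)).diag hX (S.good hX (k r))
    have a3 : (S.st (k r)).t = r := (hk r).2
    rwa [a3] at a1
  refine biorth_false hX (fun m => ∑ r ∈ Finset.range m, w r) ψ (half_pos S.D_pos)
    (fun r => (S.good hX (k r)).norm_le) hW (fun r m hrm => ?_) fun m => ?_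
  · rw [map_sum, ← Finset.sum_range_add_sum_Ico _ (show r + 1 ≤ m from hrm),
      Finset.sum_range_succ]
    have a1 : ∑ r' ∈ Finset.range r, -ψ r (w r') ≤ S.ε r := by
      refine (Finset.sum_le_card_nsmul _ _ (S.ε r / ((r : ℝ) + 1)) fun r' hr' =>
        (neg_le_abs _).trans (hlow r r' (Finset.mem_range.1 hr'))).trans ?_
      rw [Finset.card_range, nsmul_eq_mul, ← mul_div_assoc, div_le_iff₀ (by positivity)]
      linarith [S.ε_pos r]
    have a2 : ∑ r' ∈ Finset.Ico (r + 1) m, -ψ r (w r') ≤ S.ε r := by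
      refine (Finset.sum_le_sum fun r' hr' => (neg_le_abs _).trans
        (hup r r' (Finset.mem_Ico.1 hr').1)).trans ((S.ε_tail _ _).trans_eq (S.ε_succ r).symm)
    rw [Finset.sum_neg_distrib] at a1 a2
    linarith [hdiag r, S.ε_le r, S.D_pos]
  · simp only [map_sum]
    rw [← Finset.sum_const_zero (s := Finset.range m)]
    refine tendsto_finsetSum _ fun r' _ => squeeze_zero_norm' ?_ S.ε_tendsto
    filter_upwards [eventually_gt_atTop r'] with r hr
    refine (hlow r r' hr).trans (div_le_self (S.ε_pos r).le ?_)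
    linarith [Nat.cast_nonneg (α := ℝ) r]

end Setup

theorem exists_fixedPoint [CompleteSpace X]
    (hX : Function.Surjective (NormedSpace.inclusionInDoubleDual ℝ X))
    (C : Set X) (hC₁ : C.Nonempty) (hC₂ : IsClosed C) (hC₃ : Bornology.IsBounded C)
    (hC₄ : Convex ℝ C) (F : X → X) (hF₁ : Set.MapsTo F C C)
    (hF₂ : ∀ a ∈ C, ∀ b ∈ C, ‖F a - F b‖ ≤ ‖a - b‖) : ∃ x ∈ C, F x = x := by
  by_contra hcon
  push Not at hcon
  obtain ⟨K, hK⟩ := exists_minimal hX (T := F) ⟨Subset.rfl, hC₁, hC₂, hC₄, hF₁⟩ hC₃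
  obtain ⟨h1, h2, h3, h4, h5⟩ := hK.1
  have hM : MinSet K F := ⟨h2, h3, h4, h5, hC₃.subset h1,
    fun a ha b hb => hF₂ a (h1 ha) b (h1 hb),
    fun K' a1 a2 a3 a4 a5 => hK.2 ⟨a1.trans h1, a2, a3, a4, a5⟩ a1⟩
  obtain ⟨S⟩ := exists_setup hX hM fun x hx => hcon x (h1 hx)
  exact S.contra hX

end Crest.Agent.R108
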