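import Crest.Agent.R108.Setup

/-!
Row 108: linearisation of a nonexpansive map by averaging over edges.
-/

set_option autoImplicit false

open Filter Topology Set MeasureTheory

namespace Crest.Agent.R108

variable {X : Type*} [NormedAddCommGroup X] [NormedSpace ℝ X]

/-- a point on the edge from `q` to `p`, with a little weight left for `z` -/
def zeta (p q : X) (θ τ : ℝ) (z : X) : X := (1 - θ) • ((1 - τ) • q + τ • p) + θ • z

/-- averaging along a new edge -/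
noncomputable def feed (Γ : X → X) (p q : X) (θ : ℝ) (z : X) : X :=
  ∫ τ in (0 : ℝ)..1, Γ (zeta p q θ τ z)

/-- The set `K` is closed, convex, of diameter at most `D`. -/
structure Dom (K : Set X) (D : ℝ) : Prop where
  closed : IsClosed K
  conv : Convex ℝ K
  diam : ∀ a ∈ K, ∀ b ∈ K, ‖a - b‖ ≤ D

/-- Properties of one level. -/
structure Lev (K : Set X) (D : ℝ) (G Γ : X → X) (β : ℝ) : Prop where
  pos : 0 < β
  le_one : β ≤ 1
  maps : ∀ z ∈ K, Γ z ∈ K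
  lip : ∀ z ∈ K, ∀ z' ∈ K, ‖Γ z - Γ z'‖ ≤ β * ‖z - z'‖
  fix : ∀ z ∈ K, ∀ g ∈ K, ‖Γ z - g‖ ≤ (1 - β) * D + β * ‖z - g‖ + ‖G g - g‖

/-- The linearisation inequality. -/
def Lin (K : Set X) (Γ : X → X) (β : ℝ) (n : ℕ) (u U : ℕ → X) (e : ℕ → ℝ) : Prop :=
  ∀ c : ℕ → ℝ, ∀ z ∈ K, ∀ z' ∈ K,
    ‖∑ k ∈ Finset.range n, c k • U k + (Γ z - Γ z')‖ ≤
      ‖∑ k ∈ Finset.range n, c k • u k + β • (z - z')‖ + ∑ k ∈ Finset.range n, |c k| * e k

variable {K : Set X} {D : ℝ} {G Γ : X → X} {β θ : ℝ} {p q : X}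

theorem Dom.zeta_mem (hK : Dom K D) (hp : p ∈ K) (hq : q ∈ K) (hθ : θ ∈ Icc (0 : ℝ) 1) {τ : ℝ}
    (hτ : τ ∈ Icc (0 : ℝ) 1) {z : X} (hz : z ∈ K) : zeta p q θ τ z ∈ K :=
  hK.conv (hK.conv hq hp (by linarith [hτ.2]) hτ.1 (by ring)) hz (by linarith [hθ.2]) hθ.1
    (by ring)

omit [NormedSpace ℝ X] in
theorem Lev.init (hG : ∀ z ∈ K, G z ∈ K) (hG' : ∀ a ∈ K, ∀ b ∈ K, ‖G a - G b‖ ≤ ‖a - b‖) :
    Lev K D G G 1 :=
  ⟨one_pos, le_rfl, hG, fun z hz z' hz' => by simpa using hG' z hz z' hz', fun z hz g hg => by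
    have := norm_sub_le_norm_sub_add_norm_sub (G z) (G g) g
    linarith [hG' z hz g hg]⟩

theorem Lev.contOn (hK : Dom K D) (h : Lev K D G Γ β) (hp : p ∈ K) (hq : q ∈ K)
    (hθ : θ ∈ Icc (0 : ℝ) 1) {z : X} (hz : z ∈ K) :
    ContinuousOn (fun τ => Γ (zeta p q θ τ z)) (Icc 0 1) := by
  have hΓ : ContinuousOn Γ K :=
    (LipschitzOnWith.of_dist_le_mul (K := ⟨β, h.pos.le⟩) fun a ha b hb => by
      rw [dist_eq_norm, dist_eq_norm]; exact h.lip a ha b hb).continuousOn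
  refine hΓ.comp (Continuous.continuousOn ?_) fun τ hτ => hK.zeta_mem hp hq hθ hτ hz
  unfold zeta
  fun_prop

theorem Lev.intInt (hK : Dom K D) (h : Lev K D G Γ β) (hp : p ∈ K) (hq : q ∈ K)
    (hθ : θ ∈ Icc (0 : ℝ) 1) {z : X} (hz : z ∈ K) {a b : ℝ} (ha : a ∈ Icc (0 : ℝ) 1)
    (hb : b ∈ Icc (0 : ℝ) 1) :
    IntervalIntegrable (fun τ => Γ (zeta p q θ τ z)) volume a b :=
  ((h.contOn hK hp hq hθ hz).mono (uIcc_subset_Icc ha hb)).intervalIntegrable

variable [CompleteSpace X]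

theorem Lev.feed_mem (hK : Dom K D) (h : Lev K D G Γ β) (hp : p ∈ K) (hq : q ∈ K)
    (hθ : θ ∈ Icc (0 : ℝ) 1) {z : X} (hz : z ∈ K) {s : Set X} (hs : IsClosed s)
    (hs' : Convex ℝ s) (hm : ∀ τ ∈ Icc (0 : ℝ) 1, Γ (zeta p q θ τ z) ∈ s) :
    feed Γ p q θ z ∈ s := by
  have hi := h.intInt hK hp hq hθ hz (left_mem_Icc.2 zero_le_one) (right_mem_Icc.2 zero_le_one)
  unfold feed
  rw [intervalIntegral.integral_of_le zero_le_one]
  have : IsProbabilityMeasure (volume.restrict (Ioc (0 : ℝ) 1)) := ⟨by simp⟩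
  refine hs'.integral_mem hs ?_ hi.1
  filter_upwards [ae_restrict_mem measurableSet_Ioc] with τ hτ using hm τ (Ioc_subset_Icc_self hτ)

theorem Lev.feed (hK : Dom K D) (h : Lev K D G Γ β) (hp : p ∈ K) (hq : q ∈ K)
    (hθ0 : 0 < θ) (hθ1 : θ ≤ 1) : Lev K D G (feed Γ p q θ) (θ * β) := by
  have hθ : θ ∈ Icc (0 : ℝ) 1 := ⟨hθ0.le, hθ1⟩
  have h0 : (0 : ℝ) ∈ Icc (0 : ℝ) 1 := left_mem_Icc.2 zero_le_one
  have h1 : (1 : ℝ) ∈ Icc (0 : ℝ) 1 := right_mem_Icc.2 zero_le_one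
  refine ⟨mul_pos hθ0 h.pos, mul_le_one₀ hθ1 h.pos.le h.le_one, fun z hz => ?_,
    fun z hz z' hz' => ?_, fun z hz g hg => ?_⟩
  · exact h.feed_mem hK hp hq hθ hz hK.closed hK.conv fun τ hτ =>
      h.maps _ (hK.zeta_mem hp hq hθ hτ hz)
  · unfold R108.feed
    rw [← intervalIntegral.integral_sub (h.intInt hK hp hq hθ hz h0 h1)
      (h.intInt hK hp hq hθ hz' h0 h1)]
    refine (intervalIntegral.norm_integral_le_of_norm_le_const (C := θ * β * ‖z - z'‖)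
      fun τ hτ => ?_).trans (by simp)
    rw [uIoc_of_le zero_le_one] at hτ
    have hτ' := Ioc_subset_Icc_self hτ
    refine (h.lip _ (hK.zeta_mem hp hq hθ hτ' hz) _ (hK.zeta_mem hp hq hθ hτ' hz')).trans ?_
    have e : zeta p q θ τ z - zeta p q θ τ z' = θ • (z - z') := by unfold zeta; module
    rw [e, norm_smul, Real.norm_of_nonneg hθ0.le]
    exact le_of_eq (by ring)
  · refine mem_closedBall_iff_norm.1 (h.feed_mem hK hp hq hθ hz Metric.isClosed_closedBall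
      (convex_closedBall _ _) fun τ hτ => mem_closedBall_iff_norm.2 ?_)
    refine (h.fix _ (hK.zeta_mem hp hq hθ hτ hz) g hg).trans ?_
    have e : zeta p q θ τ z - g = (1 - θ) • (((1 - τ) • q + τ • p) - g) + θ • (z - g) := by
      unfold zeta; module
    have h2 : ‖zeta p q θ τ z - g‖ ≤ (1 - θ) * D + θ * ‖z - g‖ := by
      rw [e]
      refine (norm_add_le _ _).trans ?_
      rw [norm_smul, norm_smul, Real.norm_of_nonneg hθ0.le, Real.norm_of_nonneg (by linarith)]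
      have := hK.diam _ (hK.conv hq hp (by linarith [hτ.2] : 0 ≤ 1 - τ) hτ.1 (by ring)) g hg
      have := mul_le_mul_of_nonneg_left this (by linarith : 0 ≤ 1 - θ)
      linarith
    have := mul_le_mul_of_nonneg_left h2 h.pos.le
    linarith

theorem Lev.local (hK : Dom K D) (h : Lev K D G Γ β) (hp : p ∈ K) (hq : q ∈ K)
    (hθ : θ ∈ Icc (0 : ℝ) 1) {A a : X} {E : ℝ}
    (hA : ∀ y ∈ K, ∀ y' ∈ K, ‖A + (Γ y - Γ y')‖ ≤ ‖a + β • (y - y')‖ + E)
    {r : ℝ} (hr : r ∈ Icc (0 : ℝ) 1) {w w' : X} (hw : w ∈ K) (hw' : w' ∈ K) :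
    ‖A + r • (Γ p - Γ q) + (R108.feed Γ p q θ w - R108.feed Γ p q θ w')‖ ≤
      ‖a + (r * β * (1 - θ)) • (p - q) + (θ * β) • (w - w')‖ + E + r * ‖A‖ +
        2 * (r * (β * ((θ + r) * D))) := by
  have h0 : (0 : ℝ) ∈ Icc (0 : ℝ) 1 := left_mem_Icc.2 zero_le_one
  have h1 : (1 : ℝ) ∈ Icc (0 : ℝ) 1 := right_mem_Icc.2 zero_le_one
  have hr' : 1 - r ∈ Icc (0 : ℝ) 1 := ⟨by linarith [hr.2], by linarith [hr.1]⟩
  set φ : ℝ → X := fun τ => Γ (zeta p q θ τ w) with hφ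
  set φ' : ℝ → X := fun τ => Γ (zeta p q θ τ w') with hφ'
  set R := ‖a + (r * β * (1 - θ)) • (p - q) + (θ * β) • (w - w')‖ + E with hR
  have hD : 0 ≤ D := by simpa using hK.diam p hp p hp
  have i1 : ∀ {s t : ℝ}, s ∈ Icc (0 : ℝ) 1 → t ∈ Icc (0 : ℝ) 1 →
    IntervalIntegrable φ volume s t := fun hs ht => h.intInt hK hp hq hθ hw hs ht
  have i2 : ∀ {s t : ℝ}, s ∈ Icc (0 : ℝ) 1 → t ∈ Icc (0 : ℝ) 1 →
    IntervalIntegrable φ' volume s t := fun hs ht => h.intInt hK hp hq hθ hw' hs ht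
  have hpt : ∀ τ ∈ Icc (0 : ℝ) (1 - r), ‖A + (φ (τ + r) - φ' τ)‖ ≤ R := by
    intro τ hτ
    refine (hA _ (hK.zeta_mem hp hq hθ ⟨by linarith [hτ.1, hr.1], by linarith [hτ.2]⟩ hw) _
      (hK.zeta_mem hp hq hθ ⟨hτ.1, by linarith [hτ.2, hr.1]⟩ hw')).trans (le_of_eq ?_)
    rw [hR]
    congr 2
    unfold zeta
    module
  have hR0 : 0 ≤ R := (norm_nonneg _).trans (hpt 0 ⟨le_rfl, hr'.1⟩)
  have j1 : IntervalIntegrable (fun τ => φ (τ + r)) volume 0 (1 - r) := by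
    simpa using (i1 hr h1).comp_add_right r
  have m1 : ‖(1 - r) • A + ((∫ τ in r..1, φ τ) - ∫ τ in (0 : ℝ)..(1 - r), φ' τ)‖ ≤ R := by
    have := intervalIntegral.norm_integral_le_of_norm_le_const (a := 0) (b := 1 - r) (C := R)
      (f := fun τ => A + (φ (τ + r) - φ' τ)) fun τ hτ => hpt τ (by
        rw [uIoc_of_le hr'.1] at hτ; exact Ioc_subset_Icc_self hτ)
    rw [intervalIntegral.integral_add intervalIntegrable_const (j1.sub (i2 h0 hr')),
      intervalIntegral.integral_sub j1 (i2 h0 hr'), intervalIntegral.integral_comp_add_right,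
      intervalIntegral.integral_const, sub_zero, zero_add, sub_add_cancel,
      abs_of_nonneg hr'.1] at this
    nlinarith [hr.1]
  have m2 : ‖(∫ τ in (0 : ℝ)..r, φ τ) - r • Γ q‖ ≤ r * (β * ((θ + r) * D)) := by
    have := intervalIntegral.norm_integral_le_of_norm_le_const (a := 0) (b := r)
      (C := β * ((θ + r) * D)) (f := fun τ => φ τ - Γ q) fun τ hτ => by
        rw [uIoc_of_le hr.1] at hτ
        refine (h.lip _ (hK.zeta_mem hp hq hθ ⟨hτ.1.le, hτ.2.trans hr.2⟩ hw) _ hq).trans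
          (mul_le_mul_of_nonneg_left ?_ h.pos.le)
        have e : zeta p q θ τ w - q = ((1 - θ) * τ) • (p - q) + θ • (w - q) := by
          unfold zeta; module
        rw [e]
        refine (norm_add_le _ _).trans ?_
        have hτθ : 0 ≤ (1 - θ) * τ := mul_nonneg (by linarith [hθ.2]) hτ.1.le
        rw [norm_smul, norm_smul, Real.norm_of_nonneg hθ.1, Real.norm_of_nonneg hτθ]
        have a1 : (1 - θ) * τ * ‖p - q‖ ≤ r * D :=
          mul_le_mul (by nlinarith [hθ.1, hτ.1, hτ.2]) (hK.diam _ hp _ hq) (norm_nonneg _) hr.1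
        have a2 := mul_le_mul_of_nonneg_left (hK.diam _ hw _ hq) hθ.1
        linarith
    rw [intervalIntegral.integral_sub (i1 h0 hr) intervalIntegrable_const,
      intervalIntegral.integral_const, sub_zero, abs_of_nonneg hr.1] at this
    linarith
  have m3 : ‖(∫ τ in (1 - r)..1, φ' τ) - r • Γ p‖ ≤ r * (β * ((θ + r) * D)) := by
    have := intervalIntegral.norm_integral_le_of_norm_le_const (a := 1 - r) (b := 1)
      (C := β * ((θ + r) * D)) (f := fun τ => φ' τ - Γ p) fun τ hτ => by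
        rw [uIoc_of_le hr'.2] at hτ
        refine (h.lip _ (hK.zeta_mem hp hq hθ ⟨hr'.1.trans hτ.1.le, hτ.2⟩ hw') _ hp).trans
          (mul_le_mul_of_nonneg_left ?_ h.pos.le)
        have e : zeta p q θ τ w' - p = ((1 - θ) * (1 - τ)) • (q - p) + θ • (w' - p) := by
          unfold zeta; module
        rw [e]
        refine (norm_add_le _ _).trans ?_
        have hτθ : 0 ≤ (1 - θ) * (1 - τ) := mul_nonneg (by linarith [hθ.2]) (by linarith [hτ.2])
        rw [norm_smul, norm_smul, Real.norm_of_nonneg hθ.1, Real.norm_of_nonneg hτθ]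
        have a1 : (1 - θ) * (1 - τ) * ‖q - p‖ ≤ r * D :=
          mul_le_mul (by nlinarith [hθ.1, hτ.1, hτ.2]) (hK.diam _ hq _ hp) (norm_nonneg _) hr.1
        have a2 := mul_le_mul_of_nonneg_left (hK.diam _ hw' _ hp) hθ.1
        linarith
    rw [intervalIntegral.integral_sub (i2 hr' h1) intervalIntegrable_const,
      intervalIntegral.integral_const, sub_sub_cancel, abs_of_nonneg hr.1] at this
    linarith
  have e1 : R108.feed Γ p q θ w = (∫ τ in (0 : ℝ)..r, φ τ) + ∫ τ in r..1, φ τ :=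
    (intervalIntegral.integral_add_adjacent_intervals (i1 h0 hr) (i1 hr h1)).symm
  have e2 : R108.feed Γ p q θ w' =
      (∫ τ in (0 : ℝ)..(1 - r), φ' τ) + ∫ τ in (1 - r)..1, φ' τ :=
    (intervalIntegral.integral_add_adjacent_intervals (i2 h0 hr') (i2 hr' h1)).symm
  have e3 : A + r • (Γ p - Γ q) + (R108.feed Γ p q θ w - R108.feed Γ p q θ w') =
      ((1 - r) • A + ((∫ τ in r..1, φ τ) - ∫ τ in (0 : ℝ)..(1 - r), φ' τ)) + r • A +
        (((∫ τ in (0 : ℝ)..r, φ τ) - r • Γ q) - ((∫ τ in (1 - r)..1, φ' τ) - r • Γ p)) := by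
    rw [e1, e2]; module
  rw [e3]
  refine norm_add₃_le.trans ?_
  have m4 := norm_sub_le ((∫ τ in (0 : ℝ)..r, φ τ) - r • Γ q)
    ((∫ τ in (1 - r)..1, φ' τ) - r • Γ p)
  rw [norm_smul, Real.norm_of_nonneg hr.1]
  linarith

theorem Lev.global_pos (hK : Dom K D) (h : Lev K D G Γ β) (hp : p ∈ K) (hq : q ∈ K)
    (hθ : θ ∈ Icc (0 : ℝ) 1) {A a : X} {E : ℝ}
    (hA : ∀ s : ℝ, 0 < s → ∀ y ∈ K, ∀ y' ∈ K,
      ‖s • A + (Γ y - Γ y')‖ ≤ ‖s • a + β • (y - y')‖ + s * E)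
    {γ : ℝ} (hγ : 0 ≤ γ) {z z' : X} (hz : z ∈ K) (hz' : z' ∈ K) :
    ‖A + γ • (Γ p - Γ q) + (R108.feed Γ p q θ z - R108.feed Γ p q θ z')‖ ≤
      ‖a + (γ * β * (1 - θ)) • (p - q) + (θ * β) • (z - z')‖ + E + γ * (2 * θ * β * D) := by
  set R := ‖a + (γ * β * (1 - θ)) • (p - q) + (θ * β) • (z - z')‖ + E + γ * (2 * θ * β * D)
  have key : ∀ N : ℕ, 0 < N → γ ≤ N →
      ‖A + γ • (Γ p - Γ q) + (R108.feed Γ p q θ z - R108.feed Γ p q θ z')‖ ≤
        R + (γ * ‖A‖ + 2 * γ ^ 2 * β * D) / N := by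
    intro N hN hγN
    have hN' : (0 : ℝ) < N := by exact_mod_cast hN
    let w : ℕ → X := fun i => z' + ((i : ℝ) / N) • (z - z')
    have hw : ∀ i ≤ N, w i ∈ K := fun i hi =>
      hK.conv.add_smul_sub_mem hz' hz ⟨by positivity, by
        rw [div_le_one hN']; exact_mod_cast hi⟩
    have hr : γ / N ∈ Icc (0 : ℝ) 1 := ⟨by positivity, by rwa [div_le_one hN']⟩
    have e : A + γ • (Γ p - Γ q) + (R108.feed Γ p q θ z - R108.feed Γ p q θ z') =
        ∑ i ∈ Finset.range N, ((N : ℝ)⁻¹ • A + (γ / N) • (Γ p - Γ q) +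
          (R108.feed Γ p q θ (w (i + 1)) - R108.feed Γ p q θ (w i))) := by
      rw [Finset.sum_add_distrib, Finset.sum_range_sub (fun i => R108.feed Γ p q θ (w i)),
        Finset.sum_const, Finset.card_range, ← Nat.cast_smul_eq_nsmul ℝ, smul_add, smul_smul,
        smul_smul, mul_inv_cancel₀ hN'.ne', mul_div_cancel₀ _ hN'.ne', one_smul]
      simp [w, hN'.ne']
    rw [e]
    refine (norm_sum_le _ _).trans ((Finset.sum_le_card_nsmul _ _
      ((R + (γ * ‖A‖ + 2 * γ ^ 2 * β * D) / N) / N) fun i hi => ?_).trans ?_)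
    · have hi' := Finset.mem_range.1 hi
      refine (h.local hK hp hq hθ (hA _ (inv_pos.2 hN')) hr (hw (i + 1) hi') (hw i hi'.le)).trans
        (le_of_eq ?_)
      have e2 : (N : ℝ)⁻¹ • a + (γ / N * β * (1 - θ)) • (p - q) + (θ * β) • (w (i + 1) - w i) =
          (N : ℝ)⁻¹ • (a + (γ * β * (1 - θ)) • (p - q) + (θ * β) • (z - z')) := by
        simp only [w]
        push_cast
        match_scalars <;> field_simp <;> ring
      rw [e2, norm_smul, norm_smul, Real.norm_of_nonneg (inv_pos.2 hN').le]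
      simp only [R]
      field_simp
      ring
    · rw [Finset.card_range, nsmul_eq_mul, mul_div_cancel₀ _ hN'.ne']
  have hlim : Tendsto (fun N : ℕ => R + (γ * ‖A‖ + 2 * γ ^ 2 * β * D) / N) atTop (𝓝 R) := by
    simpa using (tendsto_const_div_atTop_nhds_zero_nat (γ * ‖A‖ + 2 * γ ^ 2 * β * D)).const_add R
  refine ge_of_tendsto hlim ?_
  filter_upwards [eventually_gt_atTop 0, tendsto_natCast_atTop_atTop.eventually_ge_atTop γ]
    with N h1 h2 using key N h1 h2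

theorem Lev.global (hK : Dom K D) (h : Lev K D G Γ β) (hp : p ∈ K) (hq : q ∈ K)
    (hθ : θ ∈ Icc (0 : ℝ) 1) {A a : X} {E : ℝ}
    (hA : ∀ s : ℝ, ∀ y ∈ K, ∀ y' ∈ K,
      ‖s • A + (Γ y - Γ y')‖ ≤ ‖s • a + β • (y - y')‖ + |s| * E)
    (γ : ℝ) {z z' : X} (hz : z ∈ K) (hz' : z' ∈ K) :
    ‖A + γ • (Γ p - Γ q) + (R108.feed Γ p q θ z - R108.feed Γ p q θ z')‖ ≤
      ‖a + (γ * β) • (p - q) + (θ * β) • (z - z')‖ + E + |γ| * (3 * θ * β * D) := by
  have main : ‖A + γ • (Γ p - Γ q) + (R108.feed Γ p q θ z - R108.feed Γ p q θ z')‖ ≤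
      ‖a + (γ * β * (1 - θ)) • (p - q) + (θ * β) • (z - z')‖ + E + |γ| * (2 * θ * β * D) := by
    rcases le_total 0 γ with hγ | hγ
    · rw [abs_of_nonneg hγ]
      exact h.global_pos hK hp hq hθ (fun s hs y hy y' hy' => by
        simpa only [abs_of_pos hs] using hA s y hy y' hy') hγ hz hz'
    · have := h.global_pos hK hp hq hθ (A := -A) (a := -a) (E := E) (fun s hs y hy y' hy' => by
        simpa only [abs_neg, abs_of_pos hs, neg_smul, smul_neg] using hA (-s) y hy y' hy')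
        (neg_nonneg.2 hγ) hz' hz
      have e1 : -A + -γ • (Γ p - Γ q) + (R108.feed Γ p q θ z' - R108.feed Γ p q θ z) =
        -(A + γ • (Γ p - Γ q) + (R108.feed Γ p q θ z - R108.feed Γ p q θ z')) := by module
      have e2 : -a + (-γ * β * (1 - θ)) • (p - q) + (θ * β) • (z' - z) =
        -(a + (γ * β * (1 - θ)) • (p - q) + (θ * β) • (z - z')) := by module
      rwa [e1, e2, norm_neg, norm_neg, ← abs_of_nonpos hγ] at this
  have e : a + (γ * β * (1 - θ)) • (p - q) + (θ * β) • (z - z') =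
      a + (γ * β) • (p - q) + (θ * β) • (z - z') - (γ * β * θ) • (p - q) := by module
  have h2 := norm_sub_le (a + (γ * β) • (p - q) + (θ * β) • (z - z')) ((γ * β * θ) • (p - q))
  rw [← e, norm_smul, Real.norm_eq_abs, abs_mul, abs_mul, abs_of_pos h.pos,
    abs_of_nonneg hθ.1] at h2
  have h3 := mul_le_mul_of_nonneg_left (hK.diam _ hp _ hq)
    (mul_nonneg (mul_nonneg (abs_nonneg γ) h.pos.le) hθ.1)
  linarith

omit [CompleteSpace X] in
theorem Lin.init (h : Lev K D G Γ β) {n : ℕ} {u U : ℕ → X} {e : ℕ → ℝ}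
    (hu : ∀ k < n, u k = 0) (hU : ∀ k < n, U k = 0) (he : ∀ k, 0 ≤ e k) : Lin K Γ β n u U e := by
  intro c z hz z' hz'
  rw [Finset.sum_eq_zero fun k hk => by rw [hU k (Finset.mem_range.1 hk), smul_zero],
    Finset.sum_eq_zero (s := Finset.range n) (f := fun k => c k • u k)
      fun k hk => by rw [hu k (Finset.mem_range.1 hk), smul_zero], zero_add, zero_add, norm_smul,
    Real.norm_of_nonneg h.pos.le]
  exact (h.lip z hz z' hz').trans (le_add_of_nonneg_right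
    (Finset.sum_nonneg fun k _ => mul_nonneg (abs_nonneg _) (he k)))

theorem Lin.feed (hK : Dom K D) (h : Lev K D G Γ β) (hp : p ∈ K) (hq : q ∈ K)
    (hθ : θ ∈ Icc (0 : ℝ) 1) {n : ℕ} {u U : ℕ → X} {e : ℕ → ℝ} (hL : Lin K Γ β n u U e)
    {κ : ℝ} (hκ : 0 ≤ κ) (hu : u n = (κ * β) • (p - q)) (hU : U n = κ • (Γ p - Γ q))
    (he : κ * (3 * θ * β * D) ≤ e n) : Lin K (feed Γ p q θ) (θ * β) (n + 1) u U e := by
  intro c z hz z' hz'
  have := h.global hK hp hq hθ (A := ∑ k ∈ Finset.range n, c k • U k)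
    (a := ∑ k ∈ Finset.range n, c k • u k) (E := ∑ k ∈ Finset.range n, |c k| * e k)
    (fun s y hy y' hy' => by
      simpa only [Finset.smul_sum, smul_smul, Finset.mul_sum, abs_mul, mul_assoc] using
        hL (fun k => s * c k) y hy y' hy') (c n * κ) hz hz'
  rw [Finset.sum_range_succ, Finset.sum_range_succ, Finset.sum_range_succ, hu, hU, smul_smul,
    smul_smul, ← mul_assoc]
  rw [abs_mul, abs_of_nonneg hκ, mul_assoc |c n|] at this
  linarith [mul_le_mul_of_nonneg_left he (abs_nonneg (c n))]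

omit [CompleteSpace X] in
theorem Lin.ineq {n : ℕ} {u U : ℕ → X} {e : ℕ → ℝ} (hL : Lin K Γ β n u U e) (hne : K.Nonempty)
    (he : ∀ k, 0 ≤ e k) {ι : Type*} (F : Finset ι) (κ : ι → ℕ) (hF : ∀ i ∈ F, κ i < n)
    (c : ι → ℝ) :
    ‖∑ i ∈ F, c i • U (κ i)‖ ≤ ‖∑ i ∈ F, c i • u (κ i)‖ + ∑ i ∈ F, |c i| * e (κ i) := by
  obtain ⟨z, hz⟩ := hne
  have hs : ∀ i ∈ F, κ i ∈ Finset.range n := fun k hk => Finset.mem_range.2 (hF k hk)
  have h := hL (fun k => ∑ i ∈ F with κ i = k, c i) z hz z hz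
  simp only [sub_self, smul_zero, add_zero] at h
  have e1 : ∀ v : ℕ → X, ∑ k ∈ Finset.range n, (∑ i ∈ F with κ i = k, c i) • v k =
      ∑ i ∈ F, c i • v (κ i) := fun v => by
    rw [← Finset.sum_fiberwise_of_maps_to hs]
    refine Finset.sum_congr rfl fun k _ => ?_
    rw [Finset.sum_smul]
    exact Finset.sum_congr rfl fun i hi => by rw [(Finset.mem_filter.1 hi).2]
  rw [e1, e1] at h
  refine h.trans (add_le_add_right ?_ _)
  rw [← Finset.sum_fiberwise_of_maps_to hs]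
  refine Finset.sum_le_sum fun k _ => ?_
  refine (mul_le_mul_of_nonneg_right (Finset.abs_sum_le_sum_abs _ _) (he k)).trans (le_of_eq ?_)
  rw [Finset.sum_mul]
  exact Finset.sum_congr rfl fun i hi => by rw [(Finset.mem_filter.1 hi).2]

end Crest.Agent.R108
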