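import Crest.Agent.R108.Lin

/-!
Row 108: the main process.
-/

set_option autoImplicit false

open Filter Topology Set

namespace Crest.Agent.R108

/-- the ultrafilter used for all limits -/
noncomputable abbrev UU : Ultrafilter ℕ := hyperfilter ℕ

theorem UU_le : (UU : Filter ℕ) ≤ atTop := by
  rw [← Nat.cofinite_eq_atTop]; exact hyperfilter_le_cofinite

/-- composition of the levels `s, …, s + d - 1` -/
def comp {X : Type*} (Γ : ℕ → X → X) : ℕ → ℕ → X → X
  | _, 0, z => z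
  | s, d + 1, z => Γ s (comp Γ (s + 1) d z)

/-- state of the process -/
structure St (X : Type*) [NormedAddCommGroup X] [NormedSpace ℝ X] where
  t : ℕ
  x : X
  J : ℕ → ℕ
  Γ : ℕ → ℕ → X → X
  β : ℕ → ℝ
  W : ℕ → X
  Ψ : ℕ → StrongDual ℝ X

/-- the choice made at each time -/
structure Ch (X : Type*) [NormedAddCommGroup X] [NormedSpace ℝ X] where
  j : ℕ
  x : X
  ψ : StrongDual ℝ X

variable {X : Type*} [NormedAddCommGroup X] [NormedSpace ℝ X]

instance : Nonempty (Ch X) := ⟨⟨0, 0, 0⟩⟩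

/-- weak limit along `UU` -/
noncomputable def wl (y : ℕ → X) : X := Classical.epsilon (WT UU y)

namespace St

variable (σ : St X)

/-- product of the contraction factors above level `s` -/
noncomputable def α (s : ℕ) : ℝ := ∏ r ∈ Finset.Ico s σ.t, σ.β r

/-- image of `z` at level `s` -/
def P (z : X) (M s : ℕ) : X := comp (σ.Γ M) s (σ.t - s) z

/-- weak limit of the images at the bottom level -/
noncomputable def L (z : X) : X := wl fun M => σ.P z M 0

/-- weight left after feeding -/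
noncomputable def th : ℝ := σ.α 0 / (12 * ((σ.t : ℝ) + 1) * 2 ^ (σ.t + 3))

theorem α_top : σ.α σ.t = 1 := by simp [α]

theorem α_succ {s : ℕ} (hs : s < σ.t) : σ.α s = σ.β s * σ.α (s + 1) :=
  Finset.prod_eq_prod_Ico_succ_bot hs _

theorem P_top (z : X) (M : ℕ) : σ.P z M σ.t = z := by simp [P, comp]

theorem P_succ (z : X) (M : ℕ) {s : ℕ} (hs : s < σ.t) :
    σ.P z M s = σ.Γ M s (σ.P z M (s + 1)) := by
  unfold P
  rw [show σ.t - s = (σ.t - (s + 1)) + 1 by omega, comp]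

end St

namespace Setup

variable (S : Setup X)

theorem dom : Dom S.K S.D := ⟨S.closed, S.conv, S.diam⟩

/-- tolerance at level `t` -/
noncomputable def ε (t : ℕ) : ℝ := S.D / 2 ^ (t + 3)

/-- base point -/
noncomputable def x0 : X := S.A_ne.some

/-- the reference approximate fixed point sequence -/
noncomputable def f (M : ℕ) : X := S.G M S.x0

/-- the chosen point -/
def g (c : Ch X) : X := S.G c.j c.x

/-- candidate vector -/
noncomputable def w (σ : St X) (c : Ch X) : X := (σ.α 0)⁻¹ • (σ.L (S.g c) - σ.L σ.x)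

/-- second tolerance -/
noncomputable def η (σ : St X) : ℝ := σ.α 0 * (S.ε σ.t / ((σ.t : ℝ) + 1))

/-- admissible choices -/
structure Good (n : ℕ) (σ : St X) (c : Ch X) : Prop where
  mem : c.x ∈ S.A
  near : ∀ i ≤ n, |S.θ i (S.g c - σ.x)| ≤ 1 / ((n : ℝ) + 1)
  late : ∀ s < σ.t, σ.J s * (S.D / ((c.j : ℝ) + 1)) ≤ S.η σ
  norm_le : ‖c.ψ‖ ≤ 1
  diag : S.D - S.η σ ≤ c.ψ (S.g c - σ.L σ.x)
  small : ∀ r < σ.t, |c.ψ (σ.W r)| ≤ S.ε σ.t / ((σ.t : ℝ) + 1)

/-- acceptance of a candidate -/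
def acc (σ : St X) (c : Ch X) : Prop := ∀ r < σ.t, |σ.Ψ r (S.w σ c)| ≤ S.ε σ.t

open Classical in
/-- one step of the process -/
noncomputable def step (σ : St X) (c : Ch X) : St X where
  t := if S.acc σ c then σ.t + 1 else σ.t
  x := if S.acc σ c then c.x else σ.x
  J s := if s < σ.t then σ.J s else c.j
  Γ M s := if s < σ.t then feed (σ.Γ M s) (σ.P (S.g c) M (s + 1)) (σ.P σ.x M (s + 1)) σ.th
    else feed (S.G c.j) (S.f M) c.x σ.th
  β s := if s < σ.t then σ.th * σ.β s else σ.th * 1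
  W r := if r < σ.t then σ.W r else S.w σ c
  Ψ r := if r < σ.t then σ.Ψ r else c.ψ

/-- invariants of the process -/
structure Inv (σ : St X) : Prop where
  mem : σ.x ∈ S.A
  lev : ∀ M s, Lev S.K S.D (S.G (σ.J s)) (σ.Γ M s) (σ.β s)
  hW : ∀ r, ∃ c : ℝ, ∃ p ∈ S.K, ∃ q ∈ S.K, σ.W r = c • (p - q)
  hΨ : ∀ r, ‖σ.Ψ r‖ ≤ 1

theorem ε_pos (t : ℕ) : 0 < S.ε t := div_pos S.D_pos (by positivity)

theorem x0_mem : S.x0 ∈ S.A := S.A_ne.some_mem

theorem f_mem (M : ℕ) : S.f M ∈ S.K := S.G_maps _ _ (S.A_sub S.x0_mem)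

theorem wl_spec (hX : Function.Surjective (NormedSpace.inclusionInDoubleDual ℝ X))
    {y : ℕ → X} (hy : ∀ M, y M ∈ S.K) : WT UU y (wl y) ∧ wl y ∈ S.K := by
  have h1 : WT UU y (wl y) := Classical.epsilon_spec (exists_wlim hX UU y (C := ‖S.x0‖ + S.D)
    (Eventually.of_forall fun M => by
      have := norm_add_le S.x0 (y M - S.x0)
      rw [add_sub_cancel] at this
      linarith [S.diam _ (hy M) _ (S.A_sub S.x0_mem)]))
  exact ⟨h1, h1.mem S.conv S.closed (Eventually.of_forall hy)⟩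

theorem exists_norming (W : ℕ → X) (hW : ∀ r, ∃ c : ℝ, ∃ p ∈ S.K, ∃ q ∈ S.K, W r = c • (p - q))
    {κ : ℝ} (hκ : 0 < κ) (t : ℕ) : ∀ z ∈ S.K, ∀ η > 0, ∃ j0, ∀ j ≥ j0, ∀ x ∈ S.K,
      ∃ ψ : StrongDual ℝ X, ‖ψ‖ ≤ 1 ∧ S.D - η ≤ ψ (S.G j x - z) ∧ ∀ r < t, |ψ (W r)| ≤ κ := by
  induction t with
  | zero =>
    intro z hz η hη
    obtain ⟨j0, h⟩ := S.gk z hz η hη
    refine ⟨j0, fun j hj x hx => ?_⟩
    obtain ⟨ψ, h1, h2⟩ := exists_dual_vector'' ℝ (S.G j x - z)
    exact ⟨ψ, h1, by rw [h2]; exact h j hj x hx, fun r hr => absurd hr (Nat.not_lt_zero r)⟩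
  | succ t ih =>
    intro z hz η hη
    obtain ⟨c, p, hp, q, hq, hc⟩ := hW t
    have hc1 : 0 < |c| + 1 := by positivity
    set δ := min η (κ / (|c| + 1)) with hδ
    have hδ0 : 0 < δ := lt_min hη (by positivity)
    have hz' : (1 / 3 : ℝ) • z + (2 / 3 : ℝ) • ((1 / 2 : ℝ) • p + (1 / 2 : ℝ) • q) ∈ S.K :=
      S.conv hz (S.conv hp hq (by norm_num) (by norm_num) (by norm_num)) (by norm_num)
        (by norm_num) (by norm_num)
    obtain ⟨j0, h⟩ := ih _ hz' (δ / 3) (by positivity)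
    refine ⟨j0, fun j hj x hx => ?_⟩
    obtain ⟨ψ, h1, h2, h3⟩ := h j hj x hx
    have hle : ∀ y ∈ S.K, ψ (S.G j x) - ψ y ≤ S.D := fun y hy => by
      rw [← map_sub]
      refine (le_abs_self _).trans ((ψ.le_of_opNorm_le h1 _).trans ?_)
      rw [one_mul]
      exact S.diam _ (S.G_maps j x hx) _ hy
    simp only [map_sub, map_add, map_smul, smul_eq_mul] at h2
    have a1 := hle z hz
    have a2 := hle p hp
    have a3 := hle q hq
    refine ⟨ψ, h1, ?_, fun r hr => ?_⟩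
    · rw [map_sub]
      linarith [min_le_left η (κ / (|c| + 1))]
    · rcases Nat.lt_succ_iff_lt_or_eq.1 hr with hr | rfl
      · exact h3 r hr
      · rw [hc, map_smul, map_sub, smul_eq_mul, abs_mul]
        have a4 : |ψ p - ψ q| ≤ κ / (|c| + 1) :=
          (abs_le.2 ⟨by linarith, by linarith⟩ : |ψ p - ψ q| ≤ δ).trans (min_le_right _ _)
        rw [le_div_iff₀ hc1] at a4
        nlinarith [abs_nonneg (ψ p - ψ q)]

variable {S}

namespace Inv

variable {σ : St X} (h : S.Inv σ)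
include h

theorem α_pos (s : ℕ) : 0 < σ.α s := Finset.prod_pos fun r _ => (h.lev 0 r).pos

theorem α_le_one (s : ℕ) : σ.α s ≤ 1 :=
  Finset.prod_le_one (fun r _ => (h.lev 0 r).pos.le) fun r _ => (h.lev 0 r).le_one

theorem α_zero_le {s : ℕ} (hs : s ≤ σ.t) : σ.α 0 ≤ σ.α s := by
  induction s with
  | zero => exact le_rfl
  | succ s ih =>
    refine (ih (by omega)).trans ?_
    rw [σ.α_succ hs]
    exact mul_le_of_le_one_left (h.α_pos _).le (h.lev 0 s).le_one

theorem th_pos : 0 < σ.th := div_pos (h.α_pos 0) (by positivity)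

theorem th_le_one : σ.th ≤ 1 := by
  unfold St.th
  rw [div_le_one (by positivity)]
  have h1 : (1 : ℝ) ≤ 2 ^ (σ.t + 3) := one_le_pow₀ (by norm_num)
  have h2 : (0 : ℝ) ≤ σ.t := Nat.cast_nonneg _
  nlinarith [h.α_le_one 0]

theorem η_pos : 0 < S.η σ := mul_pos (h.α_pos 0) (div_pos (S.ε_pos _) (by positivity))

theorem P_mem {z : X} (hz : z ∈ S.K) (M s : ℕ) : σ.P z M s ∈ S.K := by
  unfold St.P
  generalize σ.t - s = d
  induction d generalizing s with
  | zero => exact hz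
  | succ d ih => exact (h.lev M s).maps _ (ih _)

theorem P_fix {g : X} (hg : g ∈ S.K) {η : ℝ} (hη : ∀ s < σ.t, ‖S.G (σ.J s) g - g‖ ≤ η)
    (M d : ℕ) : ∀ s, s + d = σ.t → ‖σ.P g M s - g‖ ≤ (1 - σ.α s) * S.D + d * η := by
  induction d with
  | zero =>
    intro s hs
    obtain rfl : s = σ.t := hs
    simp [σ.P_top, σ.α_top]
  | succ d ih =>
    intro s hs
    have hs' : s < σ.t := by omega
    have h1 := ih (s + 1) (by omega)
    have h2 := (h.lev M s).fix _ (h.P_mem hg M (s + 1)) g hg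
    have h3 := mul_le_mul_of_nonneg_left h1 (h.lev M s).pos.le
    have h4 : σ.β s * (d * η) ≤ d * η := mul_le_of_le_one_left
      (mul_nonneg (Nat.cast_nonneg _) ((norm_nonneg _).trans (hη s hs'))) (h.lev M s).le_one
    rw [σ.P_succ g M hs', σ.α_succ hs']
    push_cast
    linarith [hη s hs']

theorem L_spec (hX : Function.Surjective (NormedSpace.inclusionInDoubleDual ℝ X)) {z : X}
    (hz : z ∈ S.K) : WT UU (fun M => σ.P z M 0) (σ.L z) ∧ σ.L z ∈ S.K :=
  S.wl_spec hX fun M => h.P_mem hz M 0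

theorem exists_good (hX : Function.Surjective (NormedSpace.inclusionInDoubleDual ℝ X)) (n : ℕ) :
    ∃ c, S.Good n σ c := by
  obtain ⟨j0, h0⟩ := S.exists_norming σ.W h.hW (κ := S.ε σ.t / ((σ.t : ℝ) + 1))
    (div_pos (S.ε_pos _) (by positivity)) σ.t _ (h.L_spec hX (S.A_sub h.mem)).2 _ h.η_pos
  obtain ⟨j1, h1⟩ := exists_nat_ge ((∑ s ∈ Finset.range σ.t, (σ.J s : ℝ)) * S.D / S.η σ)
  obtain ⟨j, hj, x', hx', h2⟩ := S.A_rec _ h.mem (max n (max j0 j1)) (1 / ((n : ℝ) + 1))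
    (by positivity)
  obtain ⟨ψ, h3, h4, h5⟩ := h0 j (by omega) x' (S.A_sub hx')
  refine ⟨⟨j, x', ψ⟩, hx', fun i hi => h2 i (by omega), fun s hs => ?_, h3, h4, h5⟩
  have a1 : (σ.J s : ℝ) ≤ ∑ s ∈ Finset.range σ.t, (σ.J s : ℝ) :=
    Finset.single_le_sum (f := fun s => (σ.J s : ℝ)) (fun _ _ => Nat.cast_nonneg _)
      (Finset.mem_range.2 hs)
  have a2 : (j1 : ℝ) ≤ j := by exact_mod_cast (by omega : j1 ≤ j)
  rw [div_le_iff₀ h.η_pos] at h1
  rw [← mul_div_assoc, div_le_iff₀ (by positivity)]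
  have a3 := mul_le_mul_of_nonneg_right a1 S.D_pos.le
  have a4 := mul_le_mul_of_nonneg_right a2 h.η_pos.le
  have := h.η_pos
  change _ ≤ S.η σ * ((j : ℝ) + 1)
  linarith

theorem diag (hX : Function.Surjective (NormedSpace.inclusionInDoubleDual ℝ X)) {n : ℕ}
    {c : Ch X} (hc : S.Good n σ c) : S.D - S.ε σ.t ≤ c.ψ (S.w σ c) := by
  have hg : S.g c ∈ S.K := S.G_maps _ _ (S.A_sub hc.mem)
  have h1 : ‖σ.L (S.g c) - S.g c‖ ≤ (1 - σ.α 0) * S.D + σ.t * S.η σ :=
    mem_closedBall_iff_norm.1 ((h.L_spec hX hg).1.mem (convex_closedBall _ _)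
      Metric.isClosed_closedBall (Eventually.of_forall fun M => mem_closedBall_iff_norm.2
        (h.P_fix hg (fun s hs => (S.G_fix _ _ _ (S.A_sub hc.mem)).trans (hc.late s hs)) M σ.t 0
          (zero_add _))))
  have h2 : |c.ψ (σ.L (S.g c) - S.g c)| ≤ (1 - σ.α 0) * S.D + σ.t * S.η σ :=
    (c.ψ.le_of_opNorm_le hc.norm_le _).trans (by rwa [one_mul])
  have h3 := hc.diag
  have h4 : ((σ.t : ℝ) + 1) * S.η σ = σ.α 0 * S.ε σ.t := by
    unfold η; field_simp
  unfold w
  rw [map_smul, smul_eq_mul, le_inv_mul_iff₀ (h.α_pos 0)]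
  rw [map_sub] at h2 h3 ⊢
  linarith [(abs_le.1 h2).1]

theorem step [CompleteSpace X] (hX : Function.Surjective (NormedSpace.inclusionInDoubleDual ℝ X))
    {n : ℕ} {c : Ch X} (hc : S.Good n σ c) : S.Inv (S.step σ c) := by
  have hg : S.g c ∈ S.K := S.G_maps _ _ (S.A_sub hc.mem)
  refine ⟨?_, fun M s => ?_, fun r => ?_, fun r => ?_⟩
  · simp only [Setup.step]
    split_ifs
    exacts [hc.mem, h.mem]
  · simp only [Setup.step]
    split_ifs
    · exact (h.lev M s).feed S.dom (h.P_mem hg M _) (h.P_mem (S.A_sub h.mem) M _) h.th_pos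
        h.th_le_one
    · exact (Lev.init (S.G_maps c.j) (S.G_nonexp c.j)).feed S.dom (S.f_mem M) (S.A_sub hc.mem)
        h.th_pos h.th_le_one
  · simp only [Setup.step]
    split_ifs
    · exact h.hW r
    · exact ⟨_, _, (h.L_spec hX hg).2, _, (h.L_spec hX (S.A_sub h.mem)).2, rfl⟩
  · simp only [Setup.step]
    split_ifs
    exacts [h.hΨ r, hc.norm_le]

end Inv

variable (S)

/-- the process -/
noncomputable def st : ℕ → St X
  | 0 => ⟨0, S.x0, fun _ => 0, fun _ _ => S.G 0, fun _ => 1, fun _ => 0, fun _ => 0⟩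
  | n + 1 => S.step (st n) (Classical.epsilon (S.Good n (st n)))

/-- the choices of the process -/
noncomputable def ch (n : ℕ) : Ch X := Classical.epsilon (S.Good n (S.st n))

theorem st_succ (n : ℕ) : S.st (n + 1) = S.step (S.st n) (S.ch n) := rfl

/-- number of levels at time `n` -/
noncomputable def t (n : ℕ) : ℕ := (S.st n).t

/-- accepted times -/
def Acc (n : ℕ) : Prop := S.acc (S.st n) (S.ch n)

/-- normalised differences -/
noncomputable def V (M s k : ℕ) : X :=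
  ((S.st k).α s)⁻¹ • ((S.st k).P (S.g (S.ch k)) M s - (S.st k).P (S.st k).x M s)

/-- output records -/
noncomputable def U (M s k : ℕ) : X :=
  if s < S.t k then S.V M s k else
    if s < S.t (k + 1) then S.G (S.ch k).j (S.f M) - S.g (S.ch k) else 0

/-- input records -/
noncomputable def u (M s k : ℕ) : X :=
  if s < S.t k then S.V M (s + 1) k else if s < S.t (k + 1) then S.f M - (S.ch k).x else 0

/-- error records -/
noncomputable def e (k : ℕ) : ℝ := S.ε (S.t k) / (4 * ((S.t k : ℝ) + 1))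

theorem e_nonneg (k : ℕ) : 0 ≤ S.e k := (div_pos (S.ε_pos _) (by positivity)).le

theorem t_acc {n : ℕ} (h : S.Acc n) : S.t (n + 1) = S.t n + 1 ∧ (S.st (n + 1)).x = (S.ch n).x :=
  ⟨if_pos h, if_pos h⟩

theorem t_nacc {n : ℕ} (h : ¬S.Acc n) : S.t (n + 1) = S.t n ∧ (S.st (n + 1)).x = (S.st n).x :=
  ⟨if_neg h, if_neg h⟩

theorem t_mono : Monotone S.t := monotone_nat_of_le_succ fun n => by
  by_cases h : S.Acc n
  · rw [(S.t_acc h).1]; omega
  · rw [(S.t_nacc h).1]

theorem x_const {k n : ℕ} (hkn : k ≤ n) (ht : S.t n = S.t k) : (S.st n).x = (S.st k).x := by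
  induction n, hkn using Nat.le_induction with
  | base => rfl
  | succ n hkn ih =>
    have h1 := S.t_mono hkn
    by_cases h : S.Acc n
    · have := (S.t_acc h).1; omega
    · rw [(S.t_nacc h).2, ih ((S.t_nacc h).1 ▸ ht)]

theorem WΨ_const {k n r : ℕ} (hkn : k ≤ n) (hr : r < S.t k) :
    (S.st n).W r = (S.st k).W r ∧ (S.st n).Ψ r = (S.st k).Ψ r := by
  induction n, hkn using Nat.le_induction with
  | base => exact ⟨rfl, rfl⟩
  | succ n hkn ih =>
    have h1 : r < (S.st n).t := hr.trans_le (S.t_mono hkn)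
    exact ⟨(if_pos h1).trans ih.1, (if_pos h1).trans ih.2⟩

theorem WΨ_acc {k n : ℕ} (h : S.Acc k) (hkn : k < n) :
    (S.st n).W (S.t k) = S.w (S.st k) (S.ch k) ∧ (S.st n).Ψ (S.t k) = (S.ch k).ψ := by
  have h1 := S.WΨ_const (k := k + 1) (r := S.t k) hkn (by rw [(S.t_acc h).1]; omega)
  exact ⟨h1.1.trans (if_neg (lt_irrefl _)), h1.2.trans (if_neg (lt_irrefl _))⟩

theorem V_top (M k : ℕ) : S.V M (S.t k) k = S.g (S.ch k) - (S.st k).x := by
  unfold V t
  rw [St.α_top, St.P_top, St.P_top, inv_one, one_smul]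

variable [CompleteSpace X] (hX : Function.Surjective (NormedSpace.inclusionInDoubleDual ℝ X))
include hX

theorem inv (n : ℕ) : S.Inv (S.st n) := by
  induction n with
  | zero =>
    exact ⟨S.x0_mem, fun _ _ => Lev.init (S.G_maps 0) (S.G_nonexp 0),
      fun _ => ⟨0, _, S.f_mem 0, _, S.f_mem 0, (zero_smul _ _).symm⟩, fun _ => by simp [st]⟩
  | succ n ih => exact ih.step hX (Classical.epsilon_spec (ih.exists_good hX n))

theorem good (n : ℕ) : S.Good n (S.st n) (S.ch n) :=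
  Classical.epsilon_spec ((S.inv hX n).exists_good hX n)

theorem g_mem (n : ℕ) : S.g (S.ch n) ∈ S.K := S.G_maps _ _ (S.A_sub (S.good hX n).mem)

theorem x_mem (n : ℕ) : (S.st n).x ∈ S.K := S.A_sub (S.inv hX n).mem

theorem V_lim (k : ℕ) : WT UU (fun M => S.V M 0 k) (S.w (S.st k) (S.ch k)) := fun φ => by
  have h1 := ((S.inv hX k).L_spec hX (S.g_mem hX k)).1 φ
  have h2 := ((S.inv hX k).L_spec hX (S.x_mem hX k)).1 φ
  simpa only [V, w, map_smul, map_sub, smul_eq_mul] using (h1.sub h2).const_mul _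

theorem lin (M s n : ℕ) (hs : s < S.t n) :
    Lin S.K ((S.st n).Γ M s) ((S.st n).β s) n (S.u M s) (S.U M s) S.e := by
  induction n with
  | zero => exact absurd hs (Nat.not_lt_zero _)
  | succ n ih =>
    have hI := S.inv hX n
    have hθ : (S.st n).th ∈ Icc (0 : ℝ) 1 := ⟨hI.th_pos.le, hI.th_le_one⟩
    have he : ((S.st n).α 0)⁻¹ * (3 * (S.st n).th * S.D) = S.e n := by
      have := (hI.α_pos 0).ne'
      unfold St.th e ε t
      field_simp
      ring
    have h3 : 0 ≤ 3 * (S.st n).th * S.D := mul_nonneg (by linarith [hθ.1]) S.D_pos.le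
    by_cases h : s < S.t n
    · have e1 : (S.st (n + 1)).Γ M s = _ := if_pos h
      have e2 : (S.st (n + 1)).β s = _ := if_pos h
      have hβ := (hI.lev M s).pos.ne'
      have hα := (hI.α_pos (s + 1)).ne'
      have e3 : ((S.st n).α s)⁻¹ * (S.st n).β s = ((S.st n).α (s + 1))⁻¹ := by
        rw [(S.st n).α_succ h]; field_simp
      rw [e1, e2]
      refine (ih h).feed S.dom (hI.lev M s) (hI.P_mem (S.g_mem hX n) M _)
        (hI.P_mem (S.x_mem hX n) M _) hθ (κ := ((S.st n).α s)⁻¹) (inv_pos.2 (hI.α_pos s)).le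
        ?_ ?_ ?_
      · rw [u, if_pos h, e3, V]
      · rw [U, if_pos h, V, (S.st n).P_succ _ M h, (S.st n).P_succ (S.st n).x M h]
      · rw [← he]
        calc ((S.st n).α s)⁻¹ * (3 * (S.st n).th * (S.st n).β s * S.D)
            = ((S.st n).α s)⁻¹ * (S.st n).β s * (3 * (S.st n).th * S.D) := by ring
          _ ≤ _ := by
            rw [e3]
            exact mul_le_mul_of_nonneg_right (inv_anti₀ (hI.α_pos 0) (hI.α_zero_le h)) h3
    · have e1 : (S.st (n + 1)).Γ M s = _ := if_neg h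
      have e2 : (S.st (n + 1)).β s = _ := if_neg h
      have hz : ∀ k < n, ¬s < S.t k ∧ ¬s < S.t (k + 1) := fun k hk => by
        have a1 := S.t_mono hk.le
        have a2 := S.t_mono (show k + 1 ≤ n from hk)
        omega
      have hL : Lev S.K S.D (S.G (S.ch n).j) (S.G (S.ch n).j) 1 :=
        Lev.init (S.G_maps _) (S.G_nonexp _)
      rw [e1, e2]
      refine (Lin.init hL (fun k hk => ?_) (fun k hk => ?_) S.e_nonneg).feed S.dom hL
        (S.f_mem M) (S.A_sub (S.good hX n).mem) hθ (κ := 1) zero_le_one ?_ ?_ ?_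
      · rw [u, if_neg (hz k hk).1, if_neg (hz k hk).2]
      · rw [U, if_neg (hz k hk).1, if_neg (hz k hk).2]
      · rw [u, if_neg h, if_pos hs, one_mul, one_smul]
      · rw [U, if_neg h, if_pos hs, one_smul, g]
      · rw [← he, mul_one]
        exact mul_le_mul_of_nonneg_right (one_le_inv₀ (hI.α_pos 0) |>.2 (hI.α_le_one 0)) h3

end Setup

end Crest.Agent.R108
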