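import Crest.Agent.R108.Weak

/-!
Row 108: the data extracted from a fixed-point free nonexpansive map.
-/

set_option autoImplicit false

open Filter Topology Set

namespace Crest.Agent.R108

/-- The data used in the main construction. -/
structure Setup (X : Type*) [NormedAddCommGroup X] [NormedSpace ℝ X] where
  K : Set X
  D : ℝ
  G : ℕ → X → X
  θ : ℕ → StrongDual ℝ X
  A : Set X
  D_pos : 0 < D
  closed : IsClosed K
  conv : Convex ℝ K
  diam : ∀ a ∈ K, ∀ b ∈ K, ‖a - b‖ ≤ D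
  G_maps : ∀ j, ∀ x ∈ K, G j x ∈ K
  G_nonexp : ∀ j, ∀ a ∈ K, ∀ b ∈ K, ‖G j a - G j b‖ ≤ ‖a - b‖
  G_fix : ∀ J j, ∀ x ∈ K, ‖G J (G j x) - G j x‖ ≤ J * (D / ((j : ℝ) + 1))
  gk : ∀ z ∈ K, ∀ η > 0, ∃ j0, ∀ j ≥ j0, ∀ x ∈ K, D - η ≤ ‖G j x - z‖
  sep : ∀ a ∈ K, ∀ b ∈ K, (∀ i, θ i (a - b) = 0) → a = b
  A_ne : A.Nonempty
  A_sub : A ⊆ K
  A_rec : ∀ x ∈ A, ∀ (n : ℕ), ∀ ε > 0, ∃ j ≥ n, ∃ x' ∈ A, ∀ i ≤ n, |θ i (G j x' - x)| ≤ ε

variable {X : Type*} [NormedAddCommGroup X] [NormedSpace ℝ X]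

theorem exists_recurrent (hX : Function.Surjective (NormedSpace.inclusionInDoubleDual ℝ X))
    {K : Set X} (hne : K.Nonempty) (hcl : IsClosed K) (hcv : Convex ℝ K)
    (hb : Bornology.IsBounded K) {G : ℕ → X → X} (hG : ∀ j, ∀ x ∈ K, G j x ∈ K)
    (θ : ℕ → StrongDual ℝ X) :
    ∃ A : Set X, A.Nonempty ∧ A ⊆ K ∧
      ∀ x ∈ A, ∀ (n : ℕ), ∀ ε > 0, ∃ j ≥ n, ∃ x' ∈ A, ∀ i ≤ n, |θ i (G j x' - x)| ≤ ε := by
  obtain ⟨R, hR⟩ := hb.exists_norm_le
  let 𝒯 : Set X → Set X := fun A =>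
    {x | x ∈ K ∧ ∀ (n : ℕ), ∀ ε > 0, ∃ j ≥ n, ∃ x' ∈ A, ∀ i ≤ n, |θ i (G j x' - x)| ≤ ε}
  let WC : Set X → Prop := fun A => ∀ (l : Ultrafilter X) (x : X), A ∈ l → WT l id x → x ∈ A
  have hmono : ∀ A B, A ⊆ B → 𝒯 A ⊆ 𝒯 B := fun A B hAB x hx => ⟨hx.1, fun n ε hε =>
    let ⟨j, hj, x', hx', h⟩ := hx.2 n ε hε; ⟨j, hj, x', hAB hx', h⟩⟩
  have hnear : ∀ {ι : Type _} {l : Filter ι} {y : ι → X} {x : X}, WT l y x → ∀ (n : ℕ), ∀ ε > 0,
      ∀ᶠ k in l, ∀ i ≤ n, |θ i (y k - x)| ≤ ε := by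
    intro ι l y x h n ε hε
    have : ∀ i ∈ Finset.range (n + 1), ∀ᶠ k in l, |θ i (y k - x)| ≤ ε := fun i _ => by
      have h1 := ((h (θ i)).sub_const (θ i x)).abs
      rw [sub_self, abs_zero] at h1
      simpa only [map_sub] using h1.eventually_le_const hε
    filter_upwards [(eventually_all_finset _).2 this] with k hk i hi
    exact hk i (Finset.mem_range.2 (by omega))
  have hWC : ∀ A, WC (𝒯 A) := by
    intro A l x hl hx
    refine ⟨hx.mem hcv hcl (mem_of_superset hl fun y hy => hy.1), fun n ε hε => ?_⟩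
    obtain ⟨y, hy1, hy2⟩ := ((hnear hx n (ε / 2) (by positivity)).and hl).exists
    obtain ⟨j, hj, x', hx', h⟩ := hy2.2 n (ε / 2) (by positivity)
    refine ⟨j, hj, x', hx', fun i hi => ?_⟩
    have e : θ i (G j x' - x) = θ i (G j x' - y) + θ i (id y - x) := by simp
    rw [e]
    linarith [abs_add_le (θ i (G j x' - y)) (θ i (id y - x)), h i hi, hy1 i hi]
  have hTne : ∀ A, A ⊆ K → A.Nonempty → (𝒯 A).Nonempty := by
    rintro A hA ⟨a, ha⟩
    have hl : (hyperfilter ℕ : Filter ℕ) ≤ atTop := by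
      rw [← Nat.cofinite_eq_atTop]; exact hyperfilter_le_cofinite
    obtain ⟨x, hx⟩ := exists_wlim hX (hyperfilter ℕ) (fun j => G j a) (C := R)
      (Eventually.of_forall fun j => hR _ (hG j a (hA ha)))
    refine ⟨x, hx.mem hcv hcl (Eventually.of_forall fun j => hG j a (hA ha)), fun n ε hε => ?_⟩
    have h1 : ∀ᶠ k in (hyperfilter ℕ : Filter ℕ), ∀ i ≤ n, |θ i (G k a - x)| ≤ ε := by
      have : ∀ i ∈ Finset.range (n + 1), ∀ᶠ k in (hyperfilter ℕ : Filter ℕ),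
          |θ i (G k a - x)| ≤ ε := fun i _ => by
        have h1 := ((hx (θ i)).sub_const (θ i x)).abs
        rw [sub_self, abs_zero] at h1
        simpa only [map_sub] using h1.eventually_le_const hε
      filter_upwards [(eventually_all_finset _).2 this] with k hk i hi
      exact hk i (Finset.mem_range.2 (by omega))
    obtain ⟨j, hj1, hj2⟩ := (h1.and (hl (eventually_ge_atTop n))).exists
    exact ⟨j, hj2, a, ha, hj1⟩
  let F : Set (Set X) := {A | A ⊆ K ∧ A.Nonempty ∧ WC A ∧ 𝒯 A ⊆ A}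
  have hKF : K ∈ F := ⟨Subset.rfl, hne, fun l x hl hx => hx.mem hcv hcl hl, fun x hx => hx.1⟩
  have hz : ∃ A, Minimal (· ∈ F) A := by
    refine (zorn_superset_nonempty F (fun c hc hch hcne => ?_) K hKF).imp fun A hA => hA.2
    obtain ⟨l, hl⟩ := exists_ultra_of_chain hch hcne fun s hs => (hc hs).2.1
    obtain ⟨s0, hs0⟩ := hcne
    obtain ⟨x, hx⟩ := exists_wlim hX l id (C := R)
      (mem_of_superset (hl s0 hs0) fun y hy => hR y ((hc hs0).1 hy))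
    refine ⟨⋂₀ c, ⟨(sInter_subset_of_mem hs0).trans (hc hs0).1,
      ⟨x, fun s hs => (hc hs).2.2.1 l x (hl s hs) hx⟩, fun l' y hl' hy s hs =>
        (hc hs).2.2.1 l' y (mem_of_superset hl' (sInter_subset_of_mem hs)) hy,
      fun y hy s hs => (hc hs).2.2.2 (hmono _ _ (sInter_subset_of_mem hs) hy)⟩,
      fun s hs => sInter_subset_of_mem hs⟩
  obtain ⟨A, hA⟩ := hz
  have h1 : 𝒯 A ∈ F := ⟨fun x hx => hx.1, hTne A hA.1.1 hA.1.2.1, hWC A, hmono _ _ hA.1.2.2.2⟩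
  have h2 : A ⊆ 𝒯 A := hA.2 h1 hA.1.2.2.2
  exact ⟨A, hA.1.2.1, hA.1.1, fun x hx => (h2 hx).2⟩

theorem exists_setup [CompleteSpace X]
    (hX : Function.Surjective (NormedSpace.inclusionInDoubleDual ℝ X))
    {K : Set X} {T : X → X} (h : MinSet K T) (hfix : ∀ x ∈ K, T x ≠ x) : Nonempty (Setup X) := by
  choose G hG using h.exists_resolvent
  obtain ⟨θ, hθ⟩ := exists_separating h.isSeparable
  obtain ⟨A, hA1, hA2, hA3⟩ := exists_recurrent hX h.ne h.closed h.conv h.bdd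
    (fun j x hx => (hG j x hx).1) θ
  have hdiam : ∀ a ∈ K, ∀ b ∈ K, ‖a - b‖ ≤ Metric.diam K := fun a ha b hb => by
    rw [← dist_eq_norm]; exact Metric.dist_le_diam_of_mem h.bdd ha hb
  have hs0 : ∀ j : ℕ, 0 < 1 / ((j : ℝ) + 1) := fun j => by positivity
  have hs1 : ∀ j : ℕ, 0 ≤ 1 - 1 / ((j : ℝ) + 1) := fun j => by
    rw [sub_nonneg, div_le_one (by positivity)]; linarith [Nat.cast_nonneg (α := ℝ) j]
  have hafp : ∀ j, ∀ x ∈ K, ‖G j x - T (G j x)‖ ≤ Metric.diam K / ((j : ℝ) + 1) := by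
    intro j x hx
    obtain ⟨h1, h2⟩ := hG j x hx
    have e : G j x - T (G j x) = (1 / ((j : ℝ) + 1)) • (x - T (G j x)) := by
      linear_combination (norm := module) h2
    rw [e, norm_smul, Real.norm_of_nonneg (hs0 j).le, one_div, inv_mul_eq_div]
    exact div_le_div_of_nonneg_right (hdiam _ hx _ (h.maps h1)) (by positivity)
  refine ⟨⟨K, Metric.diam K, G, θ, A, ?_, h.closed, h.conv, hdiam, fun j x hx => (hG j x hx).1,
    ?_, ?_, ?_, hθ, hA1, hA2, hA3⟩⟩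
  · obtain ⟨x, hx⟩ := h.ne
    exact lt_of_lt_of_le (norm_pos_iff.2 (sub_ne_zero.2 (hfix x hx))) (hdiam _ (h.maps hx) _ hx)
  · intro j a ha b hb
    obtain ⟨h1, h2⟩ := hG j a ha
    obtain ⟨h3, h4⟩ := hG j b hb
    have e : G j a - G j b = (1 / ((j : ℝ) + 1)) • (a - b) +
        (1 - 1 / ((j : ℝ) + 1)) • (T (G j a) - T (G j b)) := by
      linear_combination (norm := module) h2 - h4
    have h5 := norm_add_le ((1 / ((j : ℝ) + 1)) • (a - b))
      ((1 - 1 / ((j : ℝ) + 1)) • (T (G j a) - T (G j b)))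
    rw [← e, norm_smul, norm_smul, Real.norm_of_nonneg (hs0 j).le,
      Real.norm_of_nonneg (hs1 j)] at h5
    have h6 := mul_le_mul_of_nonneg_left (h.nonexp _ h1 _ h3) (hs1 j)
    have h7 : 1 / ((j : ℝ) + 1) * ‖G j a - G j b‖ ≤ 1 / ((j : ℝ) + 1) * ‖a - b‖ := by linarith
    exact le_of_mul_le_mul_left h7 (hs0 j)
  · intro J j x hx
    set g := G j x with hg
    have hgK : g ∈ K := (hG j x hx).1
    obtain ⟨h1, h2⟩ := hG J g hgK
    have e : G J g - g = (1 - 1 / ((J : ℝ) + 1)) • ((T (G J g) - T g) + (T g - g)) := by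
      linear_combination (norm := module) h2
    have h5 : ‖G J g - g‖ ≤ (1 - 1 / ((J : ℝ) + 1)) * (‖G J g - g‖ + ‖T g - g‖) := by
      conv_lhs => rw [e, norm_smul, Real.norm_of_nonneg (hs1 J)]
      refine mul_le_mul_of_nonneg_left ((norm_add_le _ _).trans ?_) (hs1 J)
      linarith [h.nonexp _ h1 _ hgK]
    have h6 : ‖T g - g‖ ≤ Metric.diam K / ((j : ℝ) + 1) := by
      rw [norm_sub_rev]; exact hafp j x hx
    have hJ : (0 : ℝ) < (J : ℝ) + 1 := by positivity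
    have h7 : ‖G J g - g‖ ≤ J * ‖T g - g‖ := by
      have h8 : (1 - 1 / ((J : ℝ) + 1)) = J / ((J : ℝ) + 1) := by field_simp; ring
      rw [h8, div_mul_eq_mul_div, le_div_iff₀ hJ] at h5
      linarith
    exact h7.trans (mul_le_mul_of_nonneg_left h6 (Nat.cast_nonneg _))
  · intro z hz η hη
    obtain ⟨δ, hδ, h1⟩ := h.goebel_karlovitz hX hz hη
    obtain ⟨j0, hj0⟩ := exists_nat_ge (Metric.diam K / δ)
    refine ⟨j0, fun j hj x hx => h1 _ (hG j x hx).1 ((hafp j x hx).trans ?_)⟩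
    have hj' : (j0 : ℝ) ≤ j := by exact_mod_cast hj
    rw [div_le_iff₀ hδ] at hj0
    rw [div_le_iff₀ (by positivity)]
    nlinarith

end Crest.Agent.R108
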