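import Mathlib

/-!
Row 108: weak limits along ultrafilters in a reflexive space; minimal invariant sets, the
Goebel–Karlovitz lemma and resolvents.
-/

set_option autoImplicit false

open Filter Topology Set

namespace Crest.Agent.R108

theorem exists_ulim_dual {E : Type*} [NormedAddCommGroup E] [NormedSpace ℝ E] {ι : Type*}
    (l : Ultrafilter ι) (φ : ι → StrongDual ℝ E) {C : ℝ} (h : ∀ᶠ i in l, ‖φ i‖ ≤ C) :
    ∃ ψ : StrongDual ℝ E, ∀ v, Tendsto (fun i => φ i v) l (𝓝 (ψ v)) := by
  have hb : ∀ v, ∀ᶠ i in l, |φ i v| ≤ C * ‖v‖ := fun v => by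
    filter_upwards [h] with i hi
    exact (φ i).le_of_opNorm_le hi v
  have hex : ∀ v, ∃ a : ℝ, Tendsto (fun i => φ i v) l (𝓝 a) := fun v => by
    obtain ⟨a, -, ha⟩ := (isCompact_Icc (a := -(C * ‖v‖)) (b := C * ‖v‖)).ultrafilter_le_nhds
      (l.map fun i => φ i v) (by
        rw [Ultrafilter.coe_map, le_principal_iff, mem_map]
        filter_upwards [hb v] with i hi using abs_le.1 hi)
    exact ⟨a, ha⟩
  choose a ha using hex
  let L : E →ₗ[ℝ] ℝ :=
    { toFun := a
      map_add' := fun v w => tendsto_nhds_unique (ha (v + w)) (by simpa using (ha v).add (ha w))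
      map_smul' := fun c v => tendsto_nhds_unique (ha (c • v)) (by
        simpa using (ha v).const_mul c) }
  refine ⟨L.mkContinuous C fun v => ?_, ha⟩
  exact le_of_tendsto (ha v).norm (hb v)

variable {X : Type*} [NormedAddCommGroup X] [NormedSpace ℝ X]

/-- weak convergence along a filter -/
def WT {ι : Type*} (l : Filter ι) (y : ι → X) (x : X) : Prop :=
  ∀ φ : StrongDual ℝ X, Tendsto (fun i => φ (y i)) l (𝓝 (φ x))

theorem exists_wlim (hX : Function.Surjective (NormedSpace.inclusionInDoubleDual ℝ X))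
    {ι : Type*} (l : Ultrafilter ι) (y : ι → X) {C : ℝ} (h : ∀ᶠ i in l, ‖y i‖ ≤ C) :
    ∃ x, WT l y x := by
  obtain ⟨ψ, hψ⟩ := exists_ulim_dual l (fun i => NormedSpace.inclusionInDoubleDual ℝ X (y i))
    (C := C) (by
      filter_upwards [h] with i hi using (NormedSpace.double_dual_bound ℝ X _).trans hi)
  obtain ⟨x, rfl⟩ := hX ψ
  exact ⟨x, hψ⟩

theorem WT.mem {ι : Type*} {l : Filter ι} [l.NeBot] {y : ι → X} {x : X} (h : WT l y x)
    {s : Set X} (hc : Convex ℝ s) (hs : IsClosed s) (hy : ∀ᶠ i in l, y i ∈ s) : x ∈ s := by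
  by_contra hx
  obtain ⟨f, u, h1, h2⟩ := geometric_hahn_banach_closed_point hc hs hx
  have : f x ≤ u := le_of_tendsto (h f) (by filter_upwards [hy] with i hi using (h1 _ hi).le)
  linarith

omit [NormedAddCommGroup X] [NormedSpace ℝ X] in
theorem exists_ultra_of_chain {c : Set (Set X)} (hc : IsChain (· ⊆ ·) c) (hne : c.Nonempty)
    (h : ∀ s ∈ c, s.Nonempty) : ∃ l : Ultrafilter X, ∀ s ∈ c, s ∈ l := by
  have : Nonempty c := hne.to_subtype
  have hd : Directed (· ≥ ·) fun s : c => (𝓟 s.1 : Filter X) := fun s t => by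
    rcases hc.total s.2 t.2 with h | h
    · exact ⟨s, le_rfl, principal_mono.2 h⟩
    · exact ⟨t, principal_mono.2 h, le_rfl⟩
  have hb := iInf_neBot_of_directed' hd fun s => principal_neBot_iff.2 (h s.1 s.2)
  refine ⟨Ultrafilter.of (⨅ s : c, 𝓟 s.1), fun s hs => ?_⟩
  exact (Ultrafilter.of_le _).trans (iInf_le _ (⟨s, hs⟩ : c)) (mem_principal_self s)

/-- nonempty closed convex invariant subsets of `C` -/
def Inv (C : Set X) (T : X → X) : Set (Set X) :=
  {K | K ⊆ C ∧ K.Nonempty ∧ IsClosed K ∧ Convex ℝ K ∧ MapsTo T K K}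

theorem exists_minimal (hX : Function.Surjective (NormedSpace.inclusionInDoubleDual ℝ X))
    {C : Set X} {T : X → X} (hC : C ∈ Inv C T) (hb : Bornology.IsBounded C) :
    ∃ K, Minimal (· ∈ Inv C T) K := by
  obtain ⟨R, hR⟩ := hb.exists_norm_le
  refine (zorn_superset_nonempty (Inv C T) (fun c hc hch hne => ?_) C hC).imp fun K hK => hK.2
  obtain ⟨l, hl⟩ := exists_ultra_of_chain hch hne fun s hs => (hc hs).2.1
  obtain ⟨s0, hs0⟩ := hne
  obtain ⟨x, hx⟩ := exists_wlim hX l id (C := R)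
    (mem_of_superset (hl s0 hs0) fun y hy => hR y ((hc hs0).1 hy))
  refine ⟨⋂₀ c, ⟨(sInter_subset_of_mem hs0).trans (hc hs0).1, ⟨x, fun s hs => ?_⟩,
    isClosed_sInter fun s hs => (hc hs).2.2.1, convex_sInter fun s hs => (hc hs).2.2.2.1,
    fun y hy s hs => (hc hs).2.2.2.2 (hy s hs)⟩, fun s hs => sInter_subset_of_mem hs⟩
  exact hx.mem (hc hs).2.2.2.1 (hc hs).2.2.1 (hl s hs)

/-- A minimal invariant set of a nonexpansive map. -/
structure MinSet (K : Set X) (T : X → X) : Prop where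
  ne : K.Nonempty
  closed : IsClosed K
  conv : Convex ℝ K
  maps : MapsTo T K K
  bdd : Bornology.IsBounded K
  nonexp : ∀ a ∈ K, ∀ b ∈ K, ‖T a - T b‖ ≤ ‖a - b‖
  min : ∀ K' ⊆ K, K'.Nonempty → IsClosed K' → Convex ℝ K' → MapsTo T K' K' → K ⊆ K'

theorem MinSet.subset_of_image {K : Set X} {T : X → X} (h : MinSet K T) {B : Set X}
    (hB : IsClosed B) (hB' : Convex ℝ B) (hT : ∀ z ∈ K, T z ∈ B) : K ⊆ B := by
  have := h.min (K ∩ B) inter_subset_left
    (let ⟨z, hz⟩ := h.ne; ⟨T z, h.maps hz, hT z hz⟩) (h.closed.inter hB) (h.conv.inter hB')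
    fun z hz => ⟨h.maps hz.1, hT z hz.1⟩
  exact fun z hz => (this hz).2

theorem MinSet.goebel_karlovitz
    (hX : Function.Surjective (NormedSpace.inclusionInDoubleDual ℝ X))
    {K : Set X} {T : X → X} (h : MinSet K T) {z : X} (hz : z ∈ K) {η : ℝ} (hη : 0 < η) :
    ∃ δ : ℝ, 0 < δ ∧ ∀ y ∈ K, ‖y - T y‖ ≤ δ → Metric.diam K - η ≤ ‖y - z‖ := by
  by_contra hcon
  push Not at hcon
  choose y hyK hyT hyz using fun n : ℕ => hcon (1 / ((n : ℝ) + 1)) (by positivity)
  set ρ := Metric.diam K - η with hρ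
  let l : Ultrafilter ℕ := hyperfilter ℕ
  have hl : (l : Filter ℕ) ≤ atTop := by
    rw [← Nat.cofinite_eq_atTop]; exact hyperfilter_le_cofinite
  -- the set of points at asymptotic distance at most `ρ`
  let S : Set X := {w | w ∈ K ∧ ∀ ε > 0, ∀ᶠ n in (l : Filter ℕ), ‖y n - w‖ ≤ ρ + ε}
  have hS : K ⊆ S := by
    refine h.min S (fun w hw => hw.1) ⟨z, hz, fun ε hε => Eventually.of_forall fun n => by
      linarith [hyz n]⟩ ?_ ?_ ?_
    · refine isClosed_of_closure_subset fun w hw => ⟨h.closed.closure_subset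
        (closure_mono (fun w hw => hw.1) hw), fun ε hε => ?_⟩
      obtain ⟨w', hw', hd⟩ := Metric.mem_closure_iff.1 hw (ε / 2) (by positivity)
      filter_upwards [hw'.2 (ε / 2) (by positivity)] with n hn
      have := norm_sub_le_norm_sub_add_norm_sub (y n) w' w
      rw [dist_comm, dist_eq_norm] at hd
      linarith
    · intro a ha b hb s t hs ht hst
      refine ⟨h.conv ha.1 hb.1 hs ht hst, fun ε hε => ?_⟩
      filter_upwards [ha.2 ε hε, hb.2 ε hε] with n h1 h2
      have e : y n - (s • a + t • b) = s • (y n - a) + t • (y n - b) := by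
        rw [smul_sub, smul_sub, sub_add_sub_comm, ← add_smul, hst, one_smul]
      rw [e]
      refine (norm_add_le _ _).trans ?_
      rw [norm_smul, norm_smul, Real.norm_of_nonneg hs, Real.norm_of_nonneg ht]
      calc s * ‖y n - a‖ + t * ‖y n - b‖ ≤ s * (ρ + ε) + t * (ρ + ε) := by gcongr
        _ = ρ + ε := by rw [← add_mul, hst, one_mul]
    · intro w hw
      refine ⟨h.maps hw.1, fun ε hε => ?_⟩
      have h0 : ∀ᶠ n : ℕ in (l : Filter ℕ), 1 / ((n : ℝ) + 1) ≤ ε / 2 :=
        hl (tendsto_one_div_add_atTop_nhds_zero_nat.eventually_le_const (by positivity))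
      filter_upwards [hw.2 (ε / 2) (by positivity), h0] with n h1 h2
      have h3 := norm_sub_le_norm_sub_add_norm_sub (y n) (T (y n)) (T w)
      have h4 := h.nonexp _ (hyK n) _ hw.1
      linarith [hyT n]
  obtain ⟨R, hR⟩ := h.bdd.exists_norm_le
  obtain ⟨x, hx⟩ := exists_wlim hX l y (C := R) (Eventually.of_forall fun n => hR _ (hyK n))
  have hxK : x ∈ K := hx.mem h.conv h.closed (Eventually.of_forall hyK)
  have hxw : ∀ w ∈ K, ‖x - w‖ ≤ ρ := fun w hw => by
    refine le_of_forall_pos_le_add fun ε hε => ?_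
    have := hx.mem (convex_closedBall w (ρ + ε)) Metric.isClosed_closedBall
      (by filter_upwards [(hS hw).2 ε hε] with n hn using mem_closedBall_iff_norm.2 hn)
    exact mem_closedBall_iff_norm.1 this
  let S' : Set X := K ∩ ⋂ w ∈ K, Metric.closedBall w ρ
  have hS' : K ⊆ S' := by
    refine h.min S' inter_subset_left
      ⟨x, hxK, mem_iInter₂.2 fun w hw => mem_closedBall_iff_norm.2 (hxw w hw)⟩
      (h.closed.inter (isClosed_biInter fun _ _ => Metric.isClosed_closedBall))
      (h.conv.inter (convex_iInter₂ fun w _ => convex_closedBall w ρ)) fun v hv => ?_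
    refine ⟨h.maps hv.1, mem_iInter₂.2 fun w hw => ?_⟩
    have := h.subset_of_image (B := Metric.closedBall (T v) ρ) Metric.isClosed_closedBall
      (convex_closedBall _ _) (fun u hu => mem_closedBall_iff_norm.2
        ((h.nonexp u hu v hv.1).trans (mem_closedBall_iff_norm'.1 (mem_iInter₂.1 hv.2 u hu)))) hw
    exact Metric.mem_closedBall_comm.1 this
  have hρ0 : 0 ≤ ρ := (norm_nonneg _).trans (hxw x hxK)
  have := Metric.diam_le_of_forall_dist_le hρ0 fun a ha b hb =>
    Metric.mem_closedBall.1 (mem_iInter₂.1 (hS' ha).2 b hb)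
  linarith

theorem MinSet.isSeparable {K : Set X} {T : X → X} (h : MinSet K T) :
    TopologicalSpace.IsSeparable K := by
  obtain ⟨x0, hx0⟩ := h.ne
  have hT : ContinuousOn T K :=
    (LipschitzOnWith.of_dist_le_mul (K := 1) fun a ha b hb => by
      simpa [dist_eq_norm] using h.nonexp a ha b hb).continuousOn
  let S : ℕ → Set X := fun n => Nat.rec {x0} (fun _ A => convexHull ℝ (A ∪ T '' A)) n
  have hS : ∀ n, S (n + 1) = convexHull ℝ (S n ∪ T '' S n) := fun _ => rfl
  have hK : ∀ n, S n ⊆ K := by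
    intro n
    induction n with
    | zero => exact singleton_subset_iff.2 hx0
    | succ n ih =>
      rw [hS]
      exact convexHull_min (union_subset ih (image_subset_iff.2 fun a ha => h.maps (ih ha))) h.conv
  have hsep : ∀ n, TopologicalSpace.IsSeparable (S n) := by
    intro n
    induction n with
    | zero => exact (finite_singleton x0).isSeparable
    | succ n ih =>
      rw [hS]
      exact ((ih.union ((hT.mono (hK n)).isSeparable_image ih)).span (R := ℝ)).mono
        (convexHull_min Submodule.subset_span (Submodule.convex _))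
  have hmono : Monotone S := monotone_nat_of_le_succ fun n => by
    rw [hS]; exact subset_union_left.trans (subset_convexHull ℝ _)
  have hU : ⋃ n, S n ⊆ K := iUnion_subset hK
  have hcl : closure (⋃ n, S n) ⊆ K := h.closed.closure_subset_iff.2 hU
  have := h.min (closure (⋃ n, S n)) hcl ⟨x0, subset_closure (mem_iUnion.2 ⟨0, rfl⟩)⟩
    isClosed_closure (Convex.closure ?_) ?_
  · exact (TopologicalSpace.IsSeparable.iUnion hsep).closure.mono this
  · intro a ha b hb s t hs ht hst
    obtain ⟨i, hi⟩ := mem_iUnion.1 ha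
    obtain ⟨j, hj⟩ := mem_iUnion.1 hb
    refine mem_iUnion.2 ⟨max i j + 1, ?_⟩
    rw [hS]
    exact convex_convexHull ℝ _ (hmono (by omega : i ≤ max i j + 1) hi)
      (hmono (by omega : j ≤ max i j + 1) hj) hs ht hst
  · intro a ha
    have h1 : T a ∈ closure (T '' ⋃ n, S n) :=
      ((hT a (hcl ha)).mono hU).mem_closure_image ha
    refine closure_mono ?_ h1
    rintro _ ⟨b, hb, rfl⟩
    obtain ⟨i, hi⟩ := mem_iUnion.1 hb
    refine mem_iUnion.2 ⟨i + 1, ?_⟩
    rw [hS]
    exact subset_convexHull ℝ _ (Or.inr ⟨b, hi, rfl⟩)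

theorem exists_separating {K : Set X} (h : TopologicalSpace.IsSeparable K) :
    ∃ θ : ℕ → StrongDual ℝ X, ∀ a ∈ K, ∀ b ∈ K, (∀ i, θ i (a - b) = 0) → a = b := by
  obtain ⟨c, hc, hKc⟩ := (h.span (R := ℝ))
  obtain ⟨d, hd⟩ := (hc.insert 0).exists_eq_range (insert_nonempty _ _)
  choose θ hθ1 hθ2 using fun i => exists_dual_vector'' ℝ (d i)
  refine ⟨θ, fun a ha b hb hab => ?_⟩
  have hv : a - b ∈ closure c :=
    hKc (Submodule.sub_mem _ (Submodule.subset_span ha) (Submodule.subset_span hb))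
  rw [← sub_eq_zero, ← norm_le_zero_iff]
  refine le_of_forall_pos_le_add fun ε hε => ?_
  obtain ⟨w, hw, hdist⟩ := Metric.mem_closure_iff.1 hv (ε / 2) (by positivity)
  obtain ⟨i, rfl⟩ : w ∈ range d := hd ▸ mem_insert_of_mem _ hw
  rw [dist_eq_norm] at hdist
  have h1 : ‖d i‖ ≤ ‖a - b - d i‖ := by
    have e : (‖d i‖ : ℝ) = -θ i (a - b - d i) := by
      rw [map_sub, hab i, hθ2 i]; simp
    rw [e]
    refine (neg_le_abs _).trans (((θ i).le_of_opNorm_le (hθ1 i) _).trans (by simp))
  have h2 := norm_add_le (a - b - d i) (d i)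
  rw [sub_add_cancel] at h2
  linarith

theorem MinSet.exists_resolvent [CompleteSpace X] {K : Set X} {T : X → X} (h : MinSet K T)
    (j : ℕ) : ∃ G : X → X, ∀ x ∈ K, G x ∈ K ∧
      G x = (1 / ((j : ℝ) + 1)) • x + (1 - 1 / ((j : ℝ) + 1)) • T (G x) := by
  set s : ℝ := 1 / ((j : ℝ) + 1) with hs
  have hs0 : 0 < s := by positivity
  have hs1 : s ≤ 1 := by
    rw [hs, div_le_one (by positivity)]; linarith [Nat.cast_nonneg (α := ℝ) j]
  have : ∀ x, ∃ y, x ∈ K → y ∈ K ∧ y = s • x + (1 - s) • T y := by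
    intro x
    by_cases hx : x ∈ K
    swap
    · exact ⟨x, fun h => absurd h hx⟩
    have hm : MapsTo (fun y => s • x + (1 - s) • T y) K K := fun y hy =>
      h.conv hx (h.maps hy) hs0.le (by linarith) (by ring)
    have hc : ContractingWith ⟨1 - s, by linarith⟩ (hm.restrict _ K K) := by
      refine ⟨by exact_mod_cast (show 1 - s < 1 by linarith), LipschitzWith.of_dist_le_mul ?_⟩
      intro a b
      change dist (s • x + (1 - s) • T a.1) (s • x + (1 - s) • T b.1) ≤ (1 - s) * dist a.1 b.1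
      rw [dist_eq_norm, dist_eq_norm, add_sub_add_left_eq_sub, ← smul_sub, norm_smul,
        Real.norm_of_nonneg (by linarith)]
      exact mul_le_mul_of_nonneg_left (h.nonexp _ a.2 _ b.2) (by linarith)
    obtain ⟨y, hy, hfix, -⟩ := ContractingWith.exists_fixedPoint' h.closed.isComplete hm hc hx
      (edist_ne_top _ _)
    exact ⟨y, fun _ => ⟨hy, hfix.symm⟩⟩
  choose G hG using this
  exact ⟨G, hG⟩

end Crest.Agent.R108
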